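import Vale.Agent.P327.Conv

namespace Vale.Agent.P327

open Encodable

theorem exists_cyl {U : Set (ℕ → Bool)} (hU : IsOpen U) {q : ℕ → Bool} (hq : q ∈ U) :
    ∃ r : ℕ, ∀ q' : ℕ → Bool, (∀ i < r, q' i = q i) → q' ∈ U := by
  obtain ⟨I, u, hu, hI⟩ := isOpen_pi_iff.1 hU q hq
  refine ⟨I.sup id + 1, fun q' hq' => hI fun i hi => ?_⟩
  have : i < I.sup id + 1 := Nat.lt_succ_of_le (Finset.le_sup (f := id) hi)
  rw [hq' i this]
  exact (hu i hi).2

theorem isOpen_cyl (q : ℕ → Bool) (r : ℕ) : IsOpen {q' : ℕ → Bool | ∀ i < r, q' i = q i} := by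
  have : {q' : ℕ → Bool | ∀ i < r, q' i = q i} =
      ⋂ i ∈ Finset.range r, (fun q' : ℕ → Bool => q' i) ⁻¹' {q i} := by
    ext q'
    simp
  rw [this]
  exact isOpen_biInter_finset fun i _ => (isOpen_discrete _).preimage (continuous_apply i)

theorem cat_elim {B C : ℕ → Bool} (hm : ¬ IsMeagre {q | TLE B (join C q)}) : TLE B C := by
  have h1 : ∃ e, ¬ IsNowhereDense {q | Red (H e) (join C q) B} := by
    by_contra hcon
    push Not at hcon
    apply hm
    have : {q | TLE B (join C q)} = ⋃ e, {q | Red (H e) (join C q) B} := by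
      ext q
      simp only [Set.mem_ofPred_eq, Set.mem_iUnion]
      exact tle_iff_exists
    rw [this]
    exact isMeagre_iUnion fun e => (hcon e).isMeagre
  obtain ⟨e, he⟩ := h1
  set S := {q | Red (H e) (join C q) B} with hS
  have h2 : (interior (closure S)).Nonempty := Set.nonempty_iff_ne_empty.2 he
  obtain ⟨q₀, hq₀⟩ := h2
  obtain ⟨r, hr⟩ := exists_cyl isOpen_interior hq₀
  have h3 : ∀ q₁ : ℕ → Bool, (∀ i < r, q₁ i = q₀ i) → ∀ s : ℕ, ∃ q' ∈ S, ∀ i < s, q' i = q₁ i := by
    intro q₁ h s
    have h4 : q₁ ∈ closure S := interior_subset (hr q₁ h)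
    obtain ⟨q', h5, h6⟩ := mem_closure_iff.1 h4 _ (isOpen_cyl q₁ s) (fun i _ => rfl)
    exact ⟨q', h6, h5⟩
  refine tle_of_search (g := fun p m i => H e (joinS p (pre q₀ r ++
    (((decode m : Option (List Bool))).getD []).map some)) i) ?_ ?_ ?_
  · refine Primrec.to_comp ?_
    refine (H_fn e).1.comp (primrec_joinS.comp Primrec.fst (Primrec.list_append.comp
      (Primrec.const _) ?_)) (Primrec.snd.comp Primrec.snd)
    refine Primrec.list_map (Primrec.option_getD.comp (Primrec.decode.comp
      (Primrec.fst.comp Primrec.snd)) (Primrec.const [])) ?_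
    exact Primrec.option_some.comp Primrec.snd
  · intro k m i b hb
    set τ : List Bool := ((decode m : Option (List Bool))).getD [] with hτ
    obtain ⟨q', hq', hag⟩ := h3 (fun i => if i < r then q₀ i else τ.getD (i - r) false)
      (fun i hi => if_pos hi) (r + τ.length)
    have h7 : Agr (pre q₀ r ++ τ.map some) q' := by
      intro n c hc
      have hlt := rd_lt hc
      simp only [List.length_append, length_pre, List.length_map] at hlt
      rw [hag n hlt]
      unfold rd at hc
      split_ifs with hn
      · rw [List.getD_append _ _ _ _ (by simpa using hn)] at hc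
        exact (rd_pre_some hc).symm
      · rw [List.getD_append_right _ _ _ _ (by simpa using hn)] at hc
        rw [length_pre, List.getD_eq_getElem?_getD, List.getElem?_map] at hc
        rw [List.getD_eq_getElem?_getD]
        have hlt2 : n - r < τ.length := by omega
        rw [List.getElem?_eq_getElem hlt2] at hc ⊢
        simpa using hc.symm
    exact Red.sound (H_fn e) hq' (agr_joinS (agr_pre C k) h7) hb
  · intro i
    obtain ⟨q', hq', hag⟩ := h3 q₀ (fun _ _ => rfl) r
    obtain ⟨k, hk⟩ := hq' i
    obtain ⟨K, hK⟩ := ((conv_pre C).join (conv_pre q')).exists_sub k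
    have h8 := hK (r + K) (Nat.le_add_left K r)
    refine ⟨r + K, encode ((List.range K).map fun j => q' (r + j)), ?_⟩
    have h9 : pre q' (r + K) = pre q₀ r ++ ((List.range K).map fun j => q' (r + j)).map some := by
      have : pre q₀ r = pre q' r := by
        unfold pre
        refine List.map_congr_left fun j hj => ?_
        rw [hag j (List.mem_range.1 hj)]
      rw [this]
      simp [pre, List.range_add, Function.comp_def]
    rw [h9] at h8
    rw [encodek, Option.getD_some, (H_fn e).2 _ _ _ _ h8 hk]
    simp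

theorem eventually_not_tle {C : ℕ → Bool} (hC : ¬ TLE C (fun _ => false)) :
    ∀ᶠ q in residual (ℕ → Bool), ¬ TLE C q := by
  have h1 : IsMeagre {q | TLE C (join (fun _ => false) q)} := by
    by_contra h
    exact hC (cat_elim h)
  have h2 : {q | TLE C q} ⊆ {q | TLE C (join (fun _ => false) q)} := fun q hq =>
    TLE.trans hq (right_tle_join _ _)
  exact h1.mono h2

end Vale.Agent.P327
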