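import Vale.Agent.P327.KU

namespace Vale.Agent.P327

open Encodable

def cl (n : ℕ) (A : ℕ → Bool) : ℕ → Bool := fun i => A (Nat.pair n i)

def era (n : ℕ) (A : ℕ → Bool) : ℕ → Bool := fun m => !decide (m.unpair.1 = n) && A m

def msk (X A : ℕ → Bool) : ℕ → Bool := fun m => X m.unpair.1 && A m

theorem exists_indep : ∃ A : ℕ → Bool, ∀ n, ¬ TLE (cl n A) (era n A) := by
  have h1 : ∀ n e, IsNowhereDense {A : ℕ → Bool | Red (H e) (era n A) (cl n A)} := by
    intro n e
    set S := {A : ℕ → Bool | Red (H e) (era n A) (cl n A)} with hS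
    rw [IsNowhereDense, Set.eq_empty_iff_forall_notMem]
    intro q hq
    obtain ⟨r, hr⟩ := exists_cyl isOpen_interior hq
    obtain ⟨A, hA1, hA2⟩ := mem_closure_iff.1 (interior_subset hq) _ (isOpen_cyl q r)
      (fun i _ => rfl)
    obtain ⟨k, hk⟩ := hA2 r
    set p := Nat.pair n r with hp
    have hrp : r ≤ p := Nat.right_le_pair n r
    let A' : ℕ → Bool := Function.update A p (!A p)
    have hA' : A' ∈ closure S := by
      refine interior_subset (hr A' fun i hi => ?_)
      have : i ≠ p := by omega
      simp only [A', Function.update_of_ne this]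
      exact hA1 i hi
    obtain ⟨A'', h1, h2⟩ := mem_closure_iff.1 hA' _ (isOpen_cyl A' (max (p + 1) k))
      (fun i _ => rfl)
    have h3 : cl n A'' r = !cl n A r := by
      have := h1 p (lt_of_lt_of_le (Nat.lt_succ_self p) (le_max_left _ _))
      simp only [A', Function.update_self] at this
      exact this
    have h4 : pre (era n A'') k = pre (era n A) k := by
      unfold pre
      refine List.map_congr_left fun j hj => ?_
      rw [List.mem_range] at hj
      congr 1
      by_cases hjp : j = p
      · subst hjp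
        simp [era, hp]
      · have := h1 j (lt_of_lt_of_le hj (le_max_right _ _))
        simp only [A', Function.update_of_ne hjp] at this
        simp only [era, this]
    have h5 := Red.sound (H_fn e) h2 (agr_pre (era n A'') k) (i := r) (b := cl n A r)
      (by rw [h4]; exact hk)
    rw [h3] at h5
    revert h5
    cases cl n A r <;> simp
  have h2 : ∀ᶠ A in residual (ℕ → Bool), ∀ n, ¬ TLE (cl n A) (era n A) := by
    rw [eventually_countable_forall]
    intro n
    have : IsMeagre {A : ℕ → Bool | TLE (cl n A) (era n A)} := by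
      have h3 : {A : ℕ → Bool | TLE (cl n A) (era n A)} =
          ⋃ e, {A : ℕ → Bool | Red (H e) (era n A) (cl n A)} := by
        ext A
        simp only [Set.mem_iUnion, Set.mem_ofPred_eq]
        exact tle_iff_exists
      rw [h3]
      exact isMeagre_iUnion fun e => (h1 n e).isMeagre
    exact this
  exact (dense_of_mem_residual h2).nonempty

theorem TLE.cl {A B : ℕ → Bool} (h : TLE A B) (n : ℕ) : TLE (cl n A) B :=
  h.comp_idx (Primrec₂.natPair.comp (Primrec.const n) Primrec.id)

theorem msk_tle (X A : ℕ → Bool) : TLE (msk X A) (join A X) :=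
  ((right_tle_join A X).comp_idx (Primrec.fst.comp Primrec.unpair)).map₂
    (left_tle_join A X) (fun x y => x && y)

theorem cl_tle_msk {X A : ℕ → Bool} {n : ℕ} (h : X n = true) : TLE (cl n A) (msk X A) := by
  have : cl n A = cl n (msk X A) := by
    funext i
    simp [cl, msk, h]
  rw [this]
  exact (TLE.refl _).cl n

theorem msk_tle_era {X A : ℕ → Bool} {n : ℕ} (h : X n = false) :
    TLE (msk X A) (join X (era n A)) := by
  have : msk X A = msk X (era n A) := by
    funext m
    unfold msk era
    by_cases hm : m.unpair.1 = n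
    · rw [hm, h]; simp
    · simp [hm]
  rw [this]
  exact (msk_tle X (era n A)).trans (join_tle (right_tle_join _ _) (left_tle_join _ _))

open Classical in
noncomputable def dec (K : ℕ → ℕ → Bool) (A₀ : ℕ → Bool) (e : ℕ) (X : ℕ → Bool) : ℕ → Bool :=
  fun n => decide (TLE (K n) (ev (H e) (join A₀ X)))

theorem measurable_dec (K : ℕ → ℕ → Bool) (A₀ : ℕ → Bool) (e : ℕ) : Measurable (dec K A₀ e) := by
  refine measurable_pi_lambda _ fun n => measurable_to_bool ?_
  have : (fun X => dec K A₀ e X n) ⁻¹' {true} = {X | TLE (K n) (ev (H e) (join A₀ X))} := by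
    ext X
    simp [dec]
  rw [this]
  exact measurableSet_tle measurable_const
    ((measurable_ev _).comp (measurable_join measurable_const measurable_id))

theorem code_general {π : TDeg ≃o TDeg} {F : (ℕ → Bool) → (ℕ → Bool)}
    (hπ : ∀ A, π (tdeg A) = tdeg (F A)) {A X X' : ℕ → Bool} (hX : tdeg (F X) = tdeg X')
    (hA : ∀ n, ¬ TLE (cl n A) (join X (era n A))) :
    ∃ e, X = dec (fun n => F (cl n A)) (F A) e X' := by
  have h1 : TLE (F (msk X A)) (join (F A) X') := by
    refine (tle_F_join hπ (msk_tle X A)).trans (join_mono (TLE.refl _) ?_)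
    exact (tdeg_eq.1 hX).1
  obtain ⟨e, he⟩ := tle_iff_exists.1 h1
  refine ⟨e, ?_⟩
  funext n
  unfold dec
  rw [ev_eq (H_fn e) he]
  cases hn : X n with
  | true =>
    symm
    simp only [decide_eq_true_eq]
    exact (tle_F_iff hπ).2 (cl_tle_msk hn)
  | false =>
    symm
    simp only [decide_eq_false_iff_not]
    intro h
    exact hA n (((tle_F_iff hπ).1 h).trans (msk_tle_era hn))

theorem claimW {π : TDeg ≃o TDeg} {F G : (ℕ → Bool) → (ℕ → Bool)}
    (hF : ∀ A, π (tdeg A) = tdeg (F A)) (hG : ∀ A, π.symm (tdeg A) = tdeg (G A)) :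
    ∃ φ ψ : ℕ → (ℕ → Bool) → (ℕ → Bool), (∀ a, Measurable (φ a)) ∧ (∀ a, Measurable (ψ a)) ∧
      (∀ᶠ x in residual (ℕ → Bool), ∃ a, F x = φ a x) ∧
      ∀ᶠ x in residual (ℕ → Bool), ∃ a, ψ a (F x) = x := by
  obtain ⟨A, hA⟩ := exists_indep
  refine ⟨fun e => dec (fun n => G (cl n A)) (G A) e, fun e => dec (fun n => F (cl n A)) (F A) e,
    fun e => measurable_dec _ _ e, fun e => measurable_dec _ _ e, ?_, ?_⟩
  · have h1 : ∀ᶠ x in residual (ℕ → Bool), ∀ n, ¬ TLE (G (cl n A)) (join (G (era n A)) x) := by
      rw [eventually_countable_forall]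
      intro n
      have : IsMeagre {x | TLE (G (cl n A)) (join (G (era n A)) x)} := by
        by_contra hm
        exact hA n ((tle_F_iff hG).1 (cat_elim hm))
      exact this
    filter_upwards [h1] with x hx
    have hGF : tdeg (G (F x)) = tdeg x := by
      rw [← hG, ← hF, π.symm_apply_apply]
    refine code_general hG (X := F x) (X' := x) hGF fun n hn => hx n ?_
    refine (tle_F_join hG hn).trans ?_
    exact join_tle ((tdeg_eq.1 hGF).1.trans (right_tle_join _ _)) (left_tle_join _ _)
  · have h1 : ∀ᶠ x in residual (ℕ → Bool), ∀ n, ¬ TLE (cl n A) (join (era n A) x) := by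
      rw [eventually_countable_forall]
      intro n
      have : IsMeagre {x | TLE (cl n A) (join (era n A) x)} := by
        by_contra hm
        exact hA n (cat_elim hm)
      exact this
    filter_upwards [h1] with x hx
    obtain ⟨e, he⟩ := code_general hF (A := A) (X := x) (X' := F x) rfl fun n hn => hx n
      (hn.trans (join_tle (right_tle_join _ _) (left_tle_join _ _)))
    exact ⟨e, he.symm⟩

end Vale.Agent.P327
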