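import Vale.Agent.P327.Red

namespace Vale.Agent.P327

open Encodable

def Conv (P : ℕ → PL) (A : ℕ → Bool) : Prop :=
  (∀ k, Agr (P k) A) ∧ ∀ i, ∃ K, ∀ k ≥ K, rd (P k) i = some (A i)

theorem conv_pre (A : ℕ → Bool) : Conv (pre A) A := by
  refine ⟨agr_pre A, fun i => ⟨i + 1, fun k hk => ?_⟩⟩
  rw [rd_pre, if_pos (by omega)]

theorem Conv.exists_sub {P : ℕ → PL} {A : ℕ → Bool} (h : Conv P A) (l : ℕ) :
    ∃ K, ∀ k ≥ K, Sub (pre A l) (P k) := by
  have h1 : ∃ K, ∀ k ≥ K, ∀ i < l + 1, rd (P k) i = some (A i) := by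
    generalize l + 1 = l'
    induction l' with
    | zero => exact ⟨0, fun k _ i hi => absurd hi (Nat.not_lt_zero i)⟩
    | succ m ih =>
      obtain ⟨K, hK⟩ := ih
      obtain ⟨L, hL⟩ := h.2 m
      refine ⟨max K L, fun k hk i hi => ?_⟩
      rcases Nat.lt_succ_iff_lt_or_eq.1 hi with h2 | h2
      · exact hK k ((le_max_left K L).trans hk) i h2
      · subst h2
        exact hL k ((le_max_right K L).trans hk)
  obtain ⟨K, hK⟩ := h1
  refine ⟨K, fun k hk => pre_sub_of ?_ fun n hn => hK k hk n (by omega)⟩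
  exact (rd_lt (hK k hk l (Nat.lt_succ_self l))).le

def out (h : PL → ℕ → Option Bool) (p : PL) : PL := (List.range p.length).map (h p)

theorem rd_out (h : PL → ℕ → Option Bool) (p : PL) (i : ℕ) :
    rd (out h p) i = if i < p.length then h p i else none := by
  unfold rd out
  rw [List.getD_eq_getElem?_getD, List.getElem?_map]
  by_cases hi : i < p.length
  · simp [hi]
  · simp [hi]

theorem primrec_out {h : PL → ℕ → Option Bool} (hh : Primrec₂ h) : Primrec (out h) :=
  Primrec.list_map (Primrec.list_range.comp Primrec.list_length) hh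

theorem Conv.out {h : PL → ℕ → Option Bool} (hh : Fn h) {P : ℕ → PL} {A B : ℕ → Bool}
    (hr : Red h A B) (hP : Conv P A) : Conv (fun k => out h (P k)) B := by
  refine ⟨fun k n b hb => ?_, fun i => ?_⟩
  · rw [rd_out] at hb
    split_ifs at hb
    exact hr.sound hh (hP.1 k) hb
  · obtain ⟨l, hl⟩ := hr i
    obtain ⟨K, hK⟩ := hP.exists_sub l
    obtain ⟨L, hL⟩ := hP.2 i
    refine ⟨max K L, fun k hk => ?_⟩
    rw [rd_out, if_pos (rd_lt (hL k ((le_max_right K L).trans hk)))]
    exact hh.2 _ _ _ _ (hK k ((le_max_left K L).trans hk)) hl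

def joinS (p q : PL) : PL :=
  (List.range (2 * min p.length q.length)).map fun i =>
    if i % 2 = 0 then rd p (i / 2) else rd q (i / 2)

theorem rd_joinS (p q : PL) (i : ℕ) :
    rd (joinS p q) i = if i < 2 * min p.length q.length then
      (if i % 2 = 0 then rd p (i / 2) else rd q (i / 2)) else none := by
  unfold joinS
  by_cases hi : i < 2 * min p.length q.length
  · rw [if_pos hi, rd, List.getD_eq_getElem?_getD, List.getElem?_map, List.getElem?_range hi]
    rfl
  · rw [if_neg hi, rd, List.getD_eq_getElem?_getD, List.getElem?_eq_none (by simpa using hi)]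
    rfl

theorem primrec_joinS : Primrec₂ joinS := by
  refine Primrec.list_map (Primrec.list_range.comp (Primrec.nat_mul.comp (Primrec.const 2)
    (Primrec.nat_min.comp (Primrec.list_length.comp Primrec.fst)
      (Primrec.list_length.comp Primrec.snd)))) ?_
  have e : PrimrecPred fun x : (PL × PL) × ℕ => x.2 % 2 = 0 :=
    PrimrecRel.comp Primrec.eq (Primrec.nat_mod.comp Primrec.snd (Primrec.const 2))
      (Primrec.const 0)
  refine Primrec.ite e ?_ ?_
  · exact primrec_rd.comp (Primrec.fst.comp Primrec.fst)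
      (Primrec.nat_div.comp Primrec.snd (Primrec.const 2))
  · exact primrec_rd.comp (Primrec.snd.comp Primrec.fst)
      (Primrec.nat_div.comp Primrec.snd (Primrec.const 2))

theorem agr_joinS {p q : PL} {A B : ℕ → Bool} (hp : Agr p A) (hq : Agr q B) :
    Agr (joinS p q) (join A B) := by
  intro n b hb
  rw [rd_joinS] at hb
  split_ifs at hb with h1 h2
  · rw [join, if_pos h2]; exact hp _ _ hb
  · rw [join, if_neg h2]; exact hq _ _ hb

theorem Conv.join {P Q : ℕ → PL} {A B : ℕ → Bool} (hP : Conv P A) (hQ : Conv Q B) :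
    Conv (fun k => joinS (P k) (Q k)) (join A B) := by
  refine ⟨fun k => agr_joinS (hP.1 k) (hQ.1 k), fun i => ?_⟩
  obtain ⟨K, hK⟩ := hP.2 (i / 2)
  obtain ⟨L, hL⟩ := hQ.2 (i / 2)
  refine ⟨max K L, fun k hk => ?_⟩
  have h1 := hK k ((le_max_left K L).trans hk)
  have h2 := hL k ((le_max_right K L).trans hk)
  have h3 := rd_lt h1
  have h4 := rd_lt h2
  have h5 : i < 2 * min (P k).length (Q k).length := by
    have : i / 2 < min (P k).length (Q k).length := lt_min h3 h4
    omega
  rw [rd_joinS, if_pos h5, Vale.Agent.P327.join]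
  split_ifs
  · exact h1
  · exact h2

def hl (p : PL) (i : ℕ) : Option Bool := rd p (2 * i)

def hr (p : PL) (i : ℕ) : Option Bool := rd p (2 * i + 1)

theorem fn_hl : Fn hl := by
  refine ⟨?_, ?_⟩
  · exact primrec_rd.comp Primrec.fst (Primrec.nat_mul.comp (Primrec.const 2) Primrec.snd)
  · intro p q n v hs h
    exact hs.2 _ _ h

theorem fn_hr : Fn hr := by
  refine ⟨?_, ?_⟩
  · exact primrec_rd.comp Primrec.fst
      (Primrec.succ.comp (Primrec.nat_mul.comp (Primrec.const 2) Primrec.snd))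
  · intro p q n v hs h
    exact hs.2 _ _ h

theorem red_hl (A B : ℕ → Bool) : Red hl (join A B) A := by
  intro i
  refine ⟨2 * i + 1, ?_⟩
  rw [hl, rd_pre, if_pos (by omega)]
  exact congrArg some (congrFun (lft_join A B) i)

theorem red_hr (A B : ℕ → Bool) : Red hr (join A B) B := by
  intro i
  refine ⟨2 * i + 2, ?_⟩
  rw [hr, rd_pre, if_pos (by omega)]
  exact congrArg some (congrFun (rgt_join A B) i)

def itY (h₁ h₂ : PL → ℕ → Option Bool) (p : PL) (n : ℕ) : PL :=
  Nat.rec (out hl p) (fun _ Y => out h₂ (joinS (out h₁ (joinS Y (out hl (out hr p))))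
    (out hr (out hr p)))) n

theorem primrec_itY {h₁ h₂ : PL → ℕ → Option Bool} (H₁ : Primrec₂ h₁) (H₂ : Primrec₂ h₂) :
    Primrec₂ (itY h₁ h₂) := by
  have o1 := primrec_out fn_hl.1
  have o2 := primrec_out fn_hr.1
  have p1 := primrec_out H₁
  have p2 := primrec_out H₂
  refine Primrec.nat_rec' (f := fun x : PL × ℕ => x.2) (g := fun x : PL × ℕ => out hl x.1)
    (h := fun (x : PL × ℕ) (z : ℕ × PL) => out h₂ (joinS (out h₁ (joinS z.2
      (out hl (out hr x.1)))) (out hr (out hr x.1)))) Primrec.snd (o1.comp Primrec.fst) ?_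
  refine p2.comp (primrec_joinS.comp (p1.comp (primrec_joinS.comp
    (Primrec.snd.comp Primrec.snd) (o1.comp (o2.comp (Primrec.fst.comp Primrec.fst)))))
    (o2.comp (o2.comp (Primrec.fst.comp Primrec.fst))))

theorem decode_lemma {C : ℕ → Bool} {h₁ h₂ h₃ : PL → ℕ → Option Bool}
    (H₁ : Fn h₁) (H₂ : Fn h₂) (H₃ : Fn h₃) {y w : ℕ → ℕ → Bool} {p₁ p₂ : ℕ → Bool}
    {z₀ z₁ : ℕ → Bool} (hne : z₀ ≠ z₁)
    (R₁ : ∀ n, Red h₁ (join (y n) p₁) (w n))
    (R₂ : ∀ n, Red h₂ (join (w n) p₂) (y (n + 1)))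
    (R₃ : ∀ n, Red h₃ (join (y n) p₁) (if C n = true then z₁ else z₀)) :
    TLE C (join (y 0) (join p₁ p₂)) := by
  obtain ⟨i₀, hi₀⟩ := Function.ne_iff.1 hne
  set J := join (y 0) (join p₁ p₂) with hJ
  have c0 : Conv (fun k => out hl (pre J k)) (y 0) := (conv_pre J).out fn_hl (red_hl _ _)
  have cr : Conv (fun k => out hr (pre J k)) (join p₁ p₂) := (conv_pre J).out fn_hr (red_hr _ _)
  have c1 : Conv (fun k => out hl (out hr (pre J k))) p₁ := cr.out fn_hl (red_hl _ _)
  have c2 : Conv (fun k => out hr (out hr (pre J k))) p₂ := cr.out fn_hr (red_hr _ _)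
  have cY : ∀ n, Conv (fun k => itY h₁ h₂ (pre J k) n) (y n) := by
    intro n
    induction n with
    | zero => exact c0
    | succ n ih => exact (((ih.join c1).out H₁ (R₁ n)).join c2).out H₂ (R₂ n)
  have cZ : ∀ n, Conv (fun k => out h₃ (joinS (itY h₁ h₂ (pre J k) n)
      (out hl (out hr (pre J k))))) (if C n = true then z₁ else z₀) := fun n =>
    ((cY n).join c1).out H₃ (R₃ n)
  refine tle_of_search (g := fun p _ n => (rd (out h₃ (joinS (itY h₁ h₂ p n)
      (out hl (out hr p)))) i₀).map fun b => b == z₁ i₀) ?_ ?_ ?_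
  · refine Primrec.to_comp ?_
    refine Primrec.option_map ?_ ?_
    · refine primrec_rd.comp ((primrec_out H₃.1).comp (primrec_joinS.comp
        ((primrec_itY H₁.1 H₂.1).comp Primrec.fst (Primrec.snd.comp Primrec.snd))
        ((primrec_out fn_hl.1).comp ((primrec_out fn_hr.1).comp Primrec.fst))))
        (Primrec.const i₀)
    · exact (Primrec.dom_finite fun b : Bool => b == z₁ i₀).comp Primrec.snd
  · intro k m n b hb
    rw [Option.map_eq_some_iff] at hb
    obtain ⟨c, hc, rfl⟩ := hb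
    have := (cZ n).1 k i₀ c hc
    rw [this]
    cases hC : C n with
    | true => simp
    | false => simpa using hi₀
  · intro n
    obtain ⟨K, hK⟩ := (cZ n).2 i₀
    refine ⟨K, 0, ?_⟩
    rw [hK K le_rfl]
    simp

end Vale.Agent.P327
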