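import Vale.Agent.P327.Code

namespace Vale.Agent.P327

open Encodable

theorem primrec_pow2 : Primrec fun n : ℕ => 2 ^ n :=
  (Primrec₂.unpaired'.1 Nat.Primrec.pow : Primrec₂ (fun a b : ℕ => a ^ b)).comp
    (Primrec.const 2) Primrec.id

def lg (n : ℕ) : ℕ := Nat.findGreatest (fun k => 2 ^ k = n) n

theorem lg_pow (k : ℕ) : lg (2 ^ k) = k := by
  have h : 2 ^ (lg (2 ^ k)) = 2 ^ k :=
    Nat.findGreatest_spec (P := fun j => 2 ^ j = 2 ^ k) (Nat.lt_two_pow_self).le rfl
  exact Nat.pow_right_injective le_rfl h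

theorem primrec_lg : Primrec lg := by
  refine Primrec.nat_findGreatest Primrec.id ?_
  exact Primrec.eq.comp (primrec_pow2.comp Primrec.snd) Primrec.fst

def hat (D : ℕ → Bool) (j : ℕ) : Bool := !decide (2 ^ (lg j) = j) || D (lg j)

theorem hat_pow (D : ℕ → Bool) (k : ℕ) : hat D (2 ^ k) = D k := by
  unfold hat
  rw [lg_pow]
  simp

theorem hat_zero (D : ℕ → Bool) : hat D 0 = true := by
  simp [hat]

theorem hat_tle {D A : ℕ → Bool} (h : TLE D A) : TLE (hat D) A := by
  have h1 : Primrec fun j : ℕ => decide (2 ^ (lg j) = j) :=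
    (PrimrecRel.decide Primrec.eq).comp (primrec_pow2.comp primrec_lg) Primrec.id
  exact (TLE.primrec h1).map₂ (h.comp_idx primrec_lg) (fun x y => !x || y)

def cs (p : ℕ) : ℕ := if p.unpair.2 < 2 ^ p.unpair.1 then
  Nat.pair p.unpair.1 ((p.unpair.2 + 1) % 2 ^ p.unpair.1) else p

def ct (p : ℕ) : ℕ := if p.unpair.2 < 2 ^ p.unpair.1 then
  Nat.pair p.unpair.1 ((p.unpair.2 + (2 ^ p.unpair.1 - 1)) % 2 ^ p.unpair.1) else p

theorem ct_cs (p : ℕ) : ct (cs p) = p := by
  unfold cs
  split_ifs with h
  · have h0 : 0 < 2 ^ p.unpair.1 := by positivity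
    unfold ct
    simp only [Nat.unpair_pair]
    rw [if_pos (Nat.mod_lt _ h0)]
    have : ((p.unpair.2 + 1) % 2 ^ p.unpair.1 + (2 ^ p.unpair.1 - 1)) % 2 ^ p.unpair.1 =
        p.unpair.2 := by
      rw [Nat.mod_add_mod]
      have e : p.unpair.2 + 1 + (2 ^ p.unpair.1 - 1) = p.unpair.2 + 2 ^ p.unpair.1 := by omega
      rw [e, Nat.add_mod_right, Nat.mod_eq_of_lt h]
    rw [this, Nat.pair_unpair]
  · unfold ct
    rw [if_neg h]

theorem cs_ct (p : ℕ) : cs (ct p) = p := by
  unfold ct
  split_ifs with h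
  · have h0 : 0 < 2 ^ p.unpair.1 := by positivity
    unfold cs
    simp only [Nat.unpair_pair]
    rw [if_pos (Nat.mod_lt _ h0)]
    have : ((p.unpair.2 + (2 ^ p.unpair.1 - 1)) % 2 ^ p.unpair.1 + 1) % 2 ^ p.unpair.1 =
        p.unpair.2 := by
      rw [Nat.mod_add_mod]
      have e : p.unpair.2 + (2 ^ p.unpair.1 - 1) + 1 = p.unpair.2 + 2 ^ p.unpair.1 := by omega
      rw [e, Nat.add_mod_right, Nat.mod_eq_of_lt h]
    rw [this, Nat.pair_unpair]
  · unfold cs
    rw [if_neg h]

theorem primrec_cs : Primrec cs := by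
  have h1 : Primrec fun p : ℕ => p.unpair.1 := Primrec.fst.comp Primrec.unpair
  have h2 : Primrec fun p : ℕ => p.unpair.2 := Primrec.snd.comp Primrec.unpair
  have h3 : Primrec fun p : ℕ => 2 ^ p.unpair.1 := primrec_pow2.comp h1
  refine Primrec.ite (Primrec.nat_lt.comp h2 h3) ?_ Primrec.id
  exact Primrec₂.natPair.comp h1 (Primrec.nat_mod.comp (Primrec.succ.comp h2) h3)

theorem cs_iter (i t : ℕ) : cs^[t] (Nat.pair i 0) = Nat.pair i (t % 2 ^ i) := by
  induction t with
  | zero => simp
  | succ t ih =>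
    rw [Function.iterate_succ_apply', ih]
    have h0 : 0 < 2 ^ i := by positivity
    unfold cs
    simp only [Nat.unpair_pair]
    rw [if_pos (Nat.mod_lt _ h0), Nat.mod_add_mod]

def Kc (r : ℕ) (p : ℕ) : Prop := p.unpair.1 < r ∧ p.unpair.2 < 2 ^ r + r

theorem kc_of_lt {r p : ℕ} (h : p < r) : Kc r p := by
  have h1 := Nat.unpair_left_le p
  have h2 := Nat.unpair_right_le p
  have h3 : 0 < 2 ^ r := by positivity
  refine ⟨by omega, by omega⟩

theorem kc_cs {r p : ℕ} (h : Kc r p) : Kc r (cs p) := by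
  unfold cs
  split_ifs with h1
  · refine ⟨?_, ?_⟩
    · simpa using h.1
    · simp only [Nat.unpair_pair]
      have h0 : 0 < 2 ^ p.unpair.1 := by positivity
      have h2 := Nat.mod_lt (p.unpair.2 + 1) h0
      have h3 : 2 ^ p.unpair.1 ≤ 2 ^ r := Nat.pow_le_pow_right (by norm_num) h.1.le
      omega
  · exact h

theorem kc_lt {r p : ℕ} (h : Kc r p) : p < Nat.pair r (2 ^ r + r) := by
  rw [← Nat.pair_unpair p]
  exact Nat.pair_lt_pair_left _ h.1 |>.trans (Nat.pair_lt_pair_right _ h.2)

def Lc (x : ℕ → Bool) : ℕ → Bool := fun p => x (cs p)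

def Mh (x : ℕ → Bool) : ℕ → Bool := fun p => decide (p.unpair.2 = 0) && x p

def mix (D σ τ : ℕ → Bool) : ℕ → Bool := fun p => if D p.unpair.2 = true then σ p else τ p

theorem TLE.lc {A B : ℕ → Bool} (h : TLE B A) : TLE (Lc B) A := h.comp_idx primrec_cs

theorem TLE.mh {A B : ℕ → Bool} (h : TLE B A) : TLE (Mh B) A := by
  have h1 : Primrec fun p : ℕ => decide (p.unpair.2 = 0) :=
    (PrimrecRel.decide Primrec.eq).comp (Primrec.snd.comp Primrec.unpair) (Primrec.const 0)
  exact (TLE.primrec h1).map₂ h (fun x y => x && y)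

theorem TLE.mix {A D σ τ : ℕ → Bool} (hD : TLE D A) (hσ : TLE σ A) (hτ : TLE τ A) :
    TLE (mix D σ τ) A := by
  have h1 := hD.comp_idx (Primrec.snd.comp Primrec.unpair)
  have h2 := h1.map₂ hσ (fun x y => x && y)
  have h3 := h1.map₂ hτ (fun x y => !x && y)
  have h4 := h2.map₂ h3 (fun x y => x || y)
  have : Vale.Agent.P327.mix D σ τ = fun n => ((D n.unpair.2 && σ n) ||
      (!D n.unpair.2 && τ n)) := by
    funext n
    unfold Vale.Agent.P327.mix
    cases D n.unpair.2 <;> simp
  rw [this]
  exact h4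

theorem lc_xr (x y : ℕ → Bool) : Lc (xr x y) = xr (Lc x) (Lc y) := rfl

theorem mh_xr (x y : ℕ → Bool) : Mh (xr x y) = xr (Mh x) (Mh y) := by
  funext m
  simp only [Mh, xr]
  cases decide (m.unpair.2 = 0) <;> simp

theorem continuous_lc : Continuous Lc := continuous_idx continuous_id cs

theorem continuous_mh : Continuous Mh := by
  refine continuous_pi fun n => ?_
  exact (continuous_of_discreteTopology (f := fun x : Bool =>
    decide (n.unpair.2 = 0) && x)).comp (continuous_apply n)

theorem continuous_xr' {α : Type} [TopologicalSpace α] {f g : α → ℕ → Bool}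
    (hf : Continuous f) (hg : Continuous g) : Continuous fun q => xr (f q) (g q) := by
  refine continuous_pi fun n => ?_
  have h1 : Continuous fun q => (f q n, g q n) :=
    ((continuous_apply n).comp hf).prodMk ((continuous_apply n).comp hg)
  exact (continuous_of_discreteTopology (f := fun x : Bool × Bool => xor x.1 x.2)).comp h1

theorem continuous_join' {α : Type} [TopologicalSpace α] {f g : α → ℕ → Bool}
    (hf : Continuous f) (hg : Continuous g) : Continuous fun q => join (f q) (g q) := by
  refine continuous_pi fun n => ?_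
  by_cases hn : n % 2 = 0
  · simp only [join, hn, if_true]
    exact (continuous_apply _).comp hf
  · simp only [join, hn, if_false]
    exact (continuous_apply _).comp hg

abbrev X2 := (ℕ → Bool) × (ℕ → Bool)

abbrev X3 := (ℕ → Bool) × (ℕ → Bool) × (ℕ → Bool)

def shear (T : (ℕ → Bool) → (ℕ → Bool)) (hT : Continuous T) : X2 ≃ₜ X2 where
  toFun z := (z.1, xr (T z.1) z.2)
  invFun z := (z.1, xr (T z.1) z.2)
  left_inv z := by simp only [xr_cancel']
  right_inv z := by simp only [xr_cancel']
  continuous_toFun := continuous_fst.prodMk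
    (continuous_xr' (hT.comp continuous_fst) continuous_snd)
  continuous_invFun := continuous_fst.prodMk
    (continuous_xr' (hT.comp continuous_fst) continuous_snd)

theorem open_shear {T : (ℕ → Bool) → (ℕ → Bool)} (hT : Continuous T) :
    Continuous (fun z : X2 => xr (T z.1) z.2) ∧ IsOpenMap (fun z : X2 => xr (T z.1) z.2) :=
  ⟨continuous_snd.comp (shear T hT).continuous, isOpenMap_snd.comp (shear T hT).isOpenMap⟩

def mixH (D : ℕ → Bool) : X2 ≃ₜ X2 where
  toFun z := (mix D z.1 z.2, mix D z.2 z.1)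
  invFun z := (mix D z.1 z.2, mix D z.2 z.1)
  left_inv z := by
    refine Prod.ext ?_ ?_ <;>
    · funext p
      simp only [mix]
      split_ifs <;> rfl
  right_inv z := by
    refine Prod.ext ?_ ?_ <;>
    · funext p
      simp only [mix]
      split_ifs <;> rfl
  continuous_toFun := by
    refine Continuous.prodMk ?_ ?_ <;>
    · refine continuous_pi fun p => ?_
      by_cases h : D p.unpair.2 = true
      · simp only [mix, h, if_true]
        first
        | exact (continuous_apply p).comp continuous_fst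
        | exact (continuous_apply p).comp continuous_snd
      · simp only [mix, h]
        first
        | exact (continuous_apply p).comp continuous_fst
        | exact (continuous_apply p).comp continuous_snd
  continuous_invFun := by
    refine Continuous.prodMk ?_ ?_ <;>
    · refine continuous_pi fun p => ?_
      by_cases h : D p.unpair.2 = true
      · simp only [mix, h, if_true]
        first
        | exact (continuous_apply p).comp continuous_fst
        | exact (continuous_apply p).comp continuous_snd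
      · simp only [mix, h]
        first
        | exact (continuous_apply p).comp continuous_fst
        | exact (continuous_apply p).comp continuous_snd

theorem open_mix (D : ℕ → Bool) :
    Continuous (fun z : X2 => mix D z.1 z.2) ∧ IsOpenMap (fun z : X2 => mix D z.1 z.2) :=
  ⟨continuous_fst.comp (mixH D).continuous, isOpenMap_fst.comp (mixH D).isOpenMap⟩

def stepH : X3 ≃ₜ X3 where
  toFun z := (xr (xr (Lc z.1) z.2.1) z.2.2, z.2.1, z.2.2)
  invFun z := (fun p => xr (xr z.1 z.2.2) z.2.1 (ct p), z.2.1, z.2.2)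
  left_inv z := by
    refine Prod.ext ?_ rfl
    funext p
    simp only [xr_cancel, Lc, cs_ct]
  right_inv z := by
    refine Prod.ext ?_ rfl
    simp only
    have : Lc (fun p => xr (xr z.1 z.2.2) z.2.1 (ct p)) = xr (xr z.1 z.2.2) z.2.1 := by
      funext p
      simp only [Lc, ct_cs]
    rw [this, xr_cancel, xr_cancel]
  continuous_toFun := by
    refine Continuous.prodMk ?_ continuous_snd
    exact continuous_xr' (continuous_xr' (continuous_lc.comp continuous_fst)
      (continuous_fst.comp continuous_snd)) (continuous_snd.comp continuous_snd)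
  continuous_invFun := by
    refine Continuous.prodMk ?_ continuous_snd
    have : Continuous fun z : X3 => xr (xr z.1 z.2.2) z.2.1 :=
      continuous_xr' (continuous_xr' continuous_fst (continuous_snd.comp continuous_snd))
        (continuous_fst.comp continuous_snd)
    exact continuous_pi fun p => (continuous_apply (ct p)).comp this

def xs (κ l m : ℕ → Bool) (n : ℕ) : ℕ → Bool :=
  Nat.rec κ (fun _ x => xr (xr (Lc x) l) m) n

theorem xs_succ (κ l m : ℕ → Bool) (n : ℕ) :
    xs κ l m (n + 1) = xr (xr (Lc (xs κ l m n)) l) m := rfl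

theorem exists_stH (n : ℕ) : ∃ h : X3 ≃ₜ X3, ∀ z, h z = (xs z.1 z.2.1 z.2.2 n, z.2.1, z.2.2) := by
  induction n with
  | zero => exact ⟨Homeomorph.refl _, fun z => rfl⟩
  | succ n ih =>
    obtain ⟨h, hh⟩ := ih
    refine ⟨h.trans stepH, fun z => ?_⟩
    rw [Homeomorph.trans_apply, hh]
    rfl

theorem open_pr12 : Continuous (fun z : X3 => (z.1, z.2.1)) ∧
    IsOpenMap (fun z : X3 => (z.1, z.2.1)) := by
  have e : (fun z : X3 => (z.1, z.2.1)) = Prod.fst ∘ (Homeomorph.prodAssoc (ℕ → Bool) (ℕ → Bool)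
    (ℕ → Bool)).symm := rfl
  rw [e]
  exact ⟨continuous_fst.comp (Homeomorph.continuous _),
    isOpenMap_fst.comp (Homeomorph.isOpenMap _)⟩

theorem open_pr3 {g : X2 → (ℕ → Bool)} (hg : Continuous g) (ho : IsOpenMap g) :
    Continuous (fun z : X3 => (g (z.1, z.2.1), z.2.2)) ∧
    IsOpenMap (fun z : X3 => (g (z.1, z.2.1), z.2.2)) := by
  have e : (fun z : X3 => (g (z.1, z.2.1), z.2.2)) = Prod.map g id ∘
    (Homeomorph.prodAssoc (ℕ → Bool) (ℕ → Bool) (ℕ → Bool)).symm := rfl
  rw [e]
  exact ⟨(hg.prodMap continuous_id).comp (Homeomorph.continuous _),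
    (ho.prodMap IsOpenMap.id).comp (Homeomorph.isOpenMap _)⟩

end Vale.Agent.P327
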