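import Vale.Agent.P327.Cyc

namespace Vale.Agent.P327

open Encodable

def base (κ l : ℕ → Bool) : ℕ → Bool := xr κ (xr (Lc κ) l)

theorem xs_agree {κ κ' l m : ℕ → Bool} {r : ℕ} (hκ : ∀ p, Kc r p → κ' p = κ p)
    (hm : ∀ p, Kc r p → m p = base κ l p) (n : ℕ) :
    ∀ p, Kc r p → xs κ' l m n p = κ p := by
  induction n with
  | zero => exact hκ
  | succ n ih =>
    intro p hp
    rw [xs_succ]
    have h1 := ih (cs p) (kc_cs hp)
    have h2 := hm p hp
    simp only [xr, Lc, base] at h1 h2 ⊢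
    rw [h1, h2]
    cases κ (cs p) <;> cases l p <;> cases κ p <;> rfl

theorem xs_diff (κ κ' l m : ℕ → Bool) (n p : ℕ) :
    (xs κ l m n p = xs κ' l m n p) ↔ κ (cs^[n] p) = κ' (cs^[n] p) := by
  induction n generalizing p with
  | zero => rfl
  | succ n ih =>
    rw [xs_succ, xs_succ, Function.iterate_succ_apply, ← ih (cs p)]
    simp only [xr, Lc]
    cases xs κ l m n (cs p) <;> cases xs κ' l m n (cs p) <;> cases l p <;> cases m p <;> simp

theorem vs_eq_iff (κ κ' l m : ℕ → Bool) (n : ℕ) :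
    xr (Mh (xs κ l m n)) l = xr (Mh (xs κ' l m n)) l ↔
      ∀ i, κ (Nat.pair i (n % 2 ^ i)) = κ' (Nat.pair i (n % 2 ^ i)) := by
  constructor
  · intro h i
    have h1 := congrFun h (Nat.pair i 0)
    rw [← cs_iter, ← xs_diff κ κ' l m]
    simp only [xr, Mh, Nat.unpair_pair, decide_true, Bool.true_and] at h1
    revert h1
    cases xs κ l m n (Nat.pair i 0) <;> cases xs κ' l m n (Nat.pair i 0) <;>
      cases l (Nat.pair i 0) <;> simp
  · intro h
    funext p
    simp only [xr, Mh]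
    by_cases hp : p.unpair.2 = 0
    · have h1 : p = Nat.pair p.unpair.1 0 := by
        conv_lhs => rw [← Nat.pair_unpair p, hp]
      have h2 := h p.unpair.1
      rw [← cs_iter, ← xs_diff κ κ' l m, ← h1] at h2
      rw [h2]
    · simp [hp]

def Zf (h₁ h₂ h₃ : PL → ℕ → Option Bool) (p : PL) (n : ℕ) : PL :=
  out h₃ (joinS (itY h₁ h₂ p n) (out hl (out hr p)))

theorem primrec_Zf {h₁ h₂ h₃ : PL → ℕ → Option Bool} (H₁ : Fn h₁) (H₂ : Fn h₂) (H₃ : Fn h₃) :
    Primrec₂ (Zf h₁ h₂ h₃) :=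
  (primrec_out H₃.1).comp (primrec_joinS.comp (primrec_itY H₁.1 H₂.1)
    ((primrec_out fn_hl.1).comp ((primrec_out fn_hr.1).comp Primrec.fst)))

theorem conv_Z {h₁ h₂ h₃ : PL → ℕ → Option Bool}
    (H₁ : Fn h₁) (H₂ : Fn h₂) (H₃ : Fn h₃) {y w z : ℕ → ℕ → Bool} {p₁ p₂ : ℕ → Bool}
    (R₁ : ∀ n, Red h₁ (join (y n) p₁) (w n))
    (R₂ : ∀ n, Red h₂ (join (w n) p₂) (y (n + 1)))
    (R₃ : ∀ n, Red h₃ (join (y n) p₁) (z n)) {P : ℕ → PL}
    (hP : Conv P (join (y 0) (join p₁ p₂))) (n : ℕ) :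
    Conv (fun k => Zf h₁ h₂ h₃ (P k) n) (z n) := by
  have c0 : Conv (fun k => out hl (P k)) (y 0) := hP.out fn_hl (red_hl _ _)
  have cr : Conv (fun k => out hr (P k)) (join p₁ p₂) := hP.out fn_hr (red_hr _ _)
  have c1 : Conv (fun k => out hl (out hr (P k))) p₁ := cr.out fn_hl (red_hl _ _)
  have c2 : Conv (fun k => out hr (out hr (P k))) p₂ := cr.out fn_hr (red_hr _ _)
  have cY : ∀ n, Conv (fun k => itY h₁ h₂ (P k) n) (y n) := by
    intro n
    induction n with
    | zero => exact c0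
    | succ n ih => exact (((ih.join c1).out H₁ (R₁ n)).join c2).out H₂ (R₂ n)
  exact ((cY n).join c1).out H₃ (R₃ n)

theorem decode2 {C : ℕ → Bool} {h₁ h₂ h₃ : PL → ℕ → Option Bool}
    (H₁ : Fn h₁) (H₂ : Fn h₂) (H₃ : Fn h₃) {y w z y' w' z' : ℕ → ℕ → Bool} {p₁ p₂ : ℕ → Bool}
    (R₁ : ∀ n, Red h₁ (join (y n) p₁) (w n))
    (R₂ : ∀ n, Red h₂ (join (w n) p₂) (y (n + 1)))
    (R₃ : ∀ n, Red h₃ (join (y n) p₁) (z n))
    (R₁' : ∀ n, Red h₁ (join (y' n) p₁) (w' n))
    (R₂' : ∀ n, Red h₂ (join (w' n) p₂) (y' (n + 1)))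
    (R₃' : ∀ n, Red h₃ (join (y' n) p₁) (z' n))
    (heq : ∀ k, join C (fun n => !C n) k = true → z (2 ^ k) = z' (2 ^ k))
    (hne : ∀ k, join C (fun n => !C n) k = false → z (2 ^ k) ≠ z' (2 ^ k)) :
    TLE C (join (join (y 0) (join p₁ p₂)) (join (y' 0) (join p₁ p₂))) := by
  set J := join (join (y 0) (join p₁ p₂)) (join (y' 0) (join p₁ p₂)) with hJ
  have cl : Conv (fun k => out hl (pre J k)) (join (y 0) (join p₁ p₂)) :=
    (conv_pre J).out fn_hl (red_hl _ _)
  have cr : Conv (fun k => out hr (pre J k)) (join (y' 0) (join p₁ p₂)) :=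
    (conv_pre J).out fn_hr (red_hr _ _)
  have cz := conv_Z H₁ H₂ H₃ R₁ R₂ R₃ cl
  have cz' := conv_Z H₁ H₂ H₃ R₁' R₂' R₃' cr
  have ev2 : ∀ n : ℕ, join C (fun n => !C n) (2 * n) = C n := fun n =>
    congrFun (lft_join C (fun n => !C n)) n
  have od2 : ∀ n : ℕ, join C (fun n => !C n) (2 * n + 1) = !C n := fun n =>
    congrFun (rgt_join C (fun n => !C n)) n
  refine tle_of_search (g := fun p m n =>
    (rd (Zf h₁ h₂ h₃ (out hl p) (2 ^ (2 * n + m.unpair.1 % 2))) m.unpair.2).bind fun a =>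
    (rd (Zf h₁ h₂ h₃ (out hr p) (2 ^ (2 * n + m.unpair.1 % 2))) m.unpair.2).bind fun b =>
    if a = b then none else some (decide (m.unpair.1 % 2 = 1))) ?_ ?_ ?_
  · refine Primrec.to_comp ?_
    have hm : Primrec fun x : PL × ℕ × ℕ => x.2.1 := Primrec.fst.comp Primrec.snd
    have hn : Primrec fun x : PL × ℕ × ℕ => x.2.2 := Primrec.snd.comp Primrec.snd
    have hs : Primrec fun x : PL × ℕ × ℕ => x.2.1.unpair.1 % 2 :=
      Primrec.nat_mod.comp (Primrec.fst.comp (Primrec.unpair.comp hm)) (Primrec.const 2)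
    have hi : Primrec fun x : PL × ℕ × ℕ => x.2.1.unpair.2 :=
      Primrec.snd.comp (Primrec.unpair.comp hm)
    have hk : Primrec fun x : PL × ℕ × ℕ => 2 ^ (2 * x.2.2 + x.2.1.unpair.1 % 2) :=
      primrec_pow2.comp (Primrec.nat_add.comp (Primrec.nat_mul.comp (Primrec.const 2) hn) hs)
    refine Primrec.option_bind (primrec_rd.comp ((primrec_Zf H₁ H₂ H₃).comp
      ((primrec_out fn_hl.1).comp Primrec.fst) hk) hi) ?_
    refine Primrec.option_bind (primrec_rd.comp ((primrec_Zf H₁ H₂ H₃).comp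
      ((primrec_out fn_hr.1).comp (Primrec.fst.comp Primrec.fst)) (hk.comp Primrec.fst))
      (hi.comp Primrec.fst)) ?_
    refine Primrec.ite (Primrec.eq.comp (Primrec.snd.comp Primrec.fst) Primrec.snd)
      (Primrec.const none) ?_
    refine Primrec.option_some.comp ?_
    exact (PrimrecRel.decide Primrec.eq).comp (hs.comp (Primrec.fst.comp Primrec.fst))
      (Primrec.const 1)
  · intro k m n b hb
    rw [Option.bind_eq_some_iff] at hb
    obtain ⟨a, ha, hb⟩ := hb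
    rw [Option.bind_eq_some_iff] at hb
    obtain ⟨a', ha', hb⟩ := hb
    split_ifs at hb with hab
    have e1 := (cz _).1 k _ _ ha
    have e2 := (cz' _).1 k _ _ ha'
    have hb' := Option.some.inj hb
    have hD : join C (fun n => !C n) (2 * n + m.unpair.1 % 2) = false := by
      by_contra hcon
      rw [Bool.not_eq_false] at hcon
      have := heq _ hcon
      exact hab (by rw [e1, e2, this])
    rcases Nat.mod_two_eq_zero_or_one m.unpair.1 with h | h
    · rw [h] at hD hb'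
      rw [Nat.add_zero, ev2] at hD
      rw [← hb', hD]
      rfl
    · rw [h] at hD hb'
      rw [od2] at hD
      rw [← hb']
      revert hD
      cases C n <;> simp
  · intro n
    have key : ∀ s : ℕ, s % 2 = s → join C (fun n => !C n) (2 * n + s) = false →
        ∃ k m : ℕ, ((rd (Zf h₁ h₂ h₃ (out hl (pre J k)) (2 ^ (2 * n + m.unpair.1 % 2)))
          m.unpair.2).bind fun a =>
          (rd (Zf h₁ h₂ h₃ (out hr (pre J k)) (2 ^ (2 * n + m.unpair.1 % 2))) m.unpair.2).bind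
          fun b => if a = b then none else some (decide (m.unpair.1 % 2 = 1))) ≠ none := by
      intro s hs hD
      obtain ⟨i, hi⟩ := Function.ne_iff.1 (hne _ hD)
      obtain ⟨K, hK⟩ := (cz (2 ^ (2 * n + s))).2 i
      obtain ⟨K', hK'⟩ := (cz' (2 ^ (2 * n + s))).2 i
      refine ⟨max K K', Nat.pair s i, ?_⟩
      have h1 := hK (max K K') (le_max_left _ _)
      have h2 := hK' (max K K') (le_max_right _ _)
      simp only [Nat.unpair_pair, hs]
      rw [h1, h2]
      simp [hi]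
    cases hC : C n with
    | false => exact key 0 rfl (by rw [Nat.add_zero, ev2, hC])
    | true => exact key 1 rfl (by rw [od2, hC]; rfl)

end Vale.Agent.P327
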