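import Mathlib

namespace Vale.Agent.P327

def chi (A : ℕ → Bool) : ℕ →. ℕ := fun n => Part.some (A n).toNat

def TLE (A B : ℕ → Bool) : Prop := TuringReducible (chi A) (chi B)

theorem TLE.refl (A : ℕ → Bool) : TLE A A := TuringReducible.refl _

theorem TLE.trans {A B C : ℕ → Bool} (h₁ : TLE A B) (h₂ : TLE B C) : TLE A C :=
  TuringReducible.trans h₁ h₂

def tsetoid : Setoid (ℕ → Bool) where
  r A B := TLE A B ∧ TLE B A
  iseqv :=
    ⟨fun A => ⟨TLE.refl A, TLE.refl A⟩, fun h => ⟨h.2, h.1⟩,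
      fun h k => ⟨h.1.trans k.1, k.2.trans h.2⟩⟩

def TDeg : Type := Quotient tsetoid

def tdeg (A : ℕ → Bool) : TDeg := Quotient.mk tsetoid A

instance : LE TDeg where
  le := Quotient.lift₂ TLE fun _ _ _ _ h k =>
    propext ⟨fun l => (h.2.trans l).trans k.1, fun l => (h.1.trans l).trans k.2⟩

theorem tdeg_le {A B : ℕ → Bool} : tdeg A ≤ tdeg B ↔ TLE A B := Iff.rfl

theorem tdeg_eq {A B : ℕ → Bool} : tdeg A = tdeg B ↔ TLE A B ∧ TLE B A :=
  ⟨fun h => Quotient.exact h, fun h => Quotient.sound h⟩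

theorem TDeg.ind {P : TDeg → Prop} (h : ∀ A, P (tdeg A)) (d : TDeg) : P d :=
  Quotient.ind h d

end Vale.Agent.P327
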