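import Vale.Agent.P327.Main

namespace Vale.Agent.P327

open Set TopologicalSpace

theorem ku {X Y : Type} [TopologicalSpace X] [TopologicalSpace Y] [SecondCountableTopology Y]
    {P : X × Y → Prop} (h : ∀ᶠ z in residual (X × Y), P z) :
    ∀ᶠ x in residual X, ∀ᶠ y in residual Y, P (x, y) := by
  obtain ⟨S, hS1, hS2, hS3, hS4⟩ := mem_residual_iff.1 h
  have h1 : ∀ t ∈ S, ∀ᶠ x in residual X, ∀ᶠ y in residual Y, (x, y) ∈ t := by
    intro t ht
    have h2 : ∀ᶠ x in residual X, ∀ V ∈ countableBasis Y, ∃ y ∈ V, (x, y) ∈ t := by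
      rw [eventually_countable_ball (countable_countableBasis Y)]
      intro V hV
      refine residual_of_dense_open ?_ ?_
      · have : {x | ∃ y ∈ V, (x, y) ∈ t} = Prod.fst '' (t ∩ (univ ×ˢ V)) := by
          ext x
          constructor
          · rintro ⟨y, hy, hxy⟩
            exact ⟨(x, y), ⟨hxy, mem_univ _, hy⟩, rfl⟩
          · rintro ⟨⟨x', y⟩, ⟨h1, _, h2⟩, rfl⟩
            exact ⟨y, h2, h1⟩
        change IsOpen {x | ∃ y ∈ V, (x, y) ∈ t}
        rw [this]
        exact isOpenMap_fst _ ((hS1 t ht).inter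
          (isOpen_univ.prod (isOpen_of_mem_countableBasis hV)))
      · rw [dense_iff_inter_open]
        intro U hU hUne
        obtain ⟨⟨x, y⟩, ⟨hx, hy⟩, hxy⟩ := dense_iff_inter_open.1 (hS2 t ht) (U ×ˢ V)
          (hU.prod (isOpen_of_mem_countableBasis hV))
          (hUne.prod (nonempty_of_mem_countableBasis hV))
        exact ⟨x, hx, y, hy, hxy⟩
    filter_upwards [h2] with x hx
    refine residual_of_dense_open ?_ ?_
    · exact (hS1 t ht).preimage (Continuous.prodMk_right x)
    · rw [dense_iff_inter_open]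
      rintro U hU ⟨y, hy⟩
      obtain ⟨V, hV, hyV, hVU⟩ := (isBasis_countableBasis Y).exists_subset_of_mem_open hy hU
      obtain ⟨y', hy', hxy⟩ := hx V hV
      exact ⟨y', hVU hy', hxy⟩
  have h3 : ∀ᶠ x in residual X, ∀ t ∈ S, ∀ᶠ y in residual Y, (x, y) ∈ t := by
    rw [eventually_countable_ball hS3]
    exact h1
  filter_upwards [h3] with x hx
  have h4 : ∀ᶠ y in residual Y, ∀ t ∈ S, (x, y) ∈ t := by
    rw [eventually_countable_ball hS3]
    exact hx
  filter_upwards [h4] with y hy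
  exact hS4 (mem_sInter.2 hy)

theorem heavy {Y : Type} [TopologicalSpace Y] [SecondCountableTopology Y] (E : Set Y) :
    ∀ᶠ y in residual Y, y ∈ E → ∀ U : Set Y, IsOpen U → y ∈ U → ¬ IsMeagre (E ∩ U) := by
  have h1 : ∀ᶠ y in residual Y, ∀ V ∈ countableBasis Y, IsMeagre (E ∩ V) → y ∉ E ∩ V := by
    rw [eventually_countable_ball (countable_countableBasis Y)]
    intro V _
    by_cases hm : IsMeagre (E ∩ V)
    · have : ∀ᶠ y in residual Y, y ∉ E ∩ V := hm
      filter_upwards [this] with y hy _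
      exact hy
    · exact Filter.Eventually.of_forall fun y h => absurd h hm
  filter_upwards [h1] with y hy hyE U hU hyU hm
  obtain ⟨V, hV, hyV, hVU⟩ := (isBasis_countableBasis Y).exists_subset_of_mem_open hyU hU
  exact hy V hV (hm.mono (inter_subset_inter_right E hVU)) ⟨hyE, hyV⟩

theorem exists_of_not_meagre {Y : Type} [TopologicalSpace Y] {S : Set Y} (hS : ¬ IsMeagre S)
    {Q : Y → Prop} (hQ : ∀ᶠ y in residual Y, Q y) : ∃ y ∈ S, Q y := by
  by_contra hcon
  push Not at hcon
  apply hS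
  have : ∀ᶠ y in residual Y, y ∉ S := by
    filter_upwards [hQ] with y hy hyS
    exact hcon y hyS hy
  exact this

theorem ev_open {Y Z : Type} [TopologicalSpace Y] [TopologicalSpace Z] {P : Z → Prop}
    (h : ∀ᶠ z in residual Z, P z) {f : Y → Z} (hf : Continuous f) (ho : IsOpenMap f) :
    ∀ᶠ y in residual Y, P (f y) :=
  (tendsto_residual_of_isOpenMap hf ho).eventually h

theorem local_family {Y : Type} [TopologicalSpace Y] [MeasurableSpace Y] [BorelSpace Y]
    {ι : Type} [Countable ι] {R : ι → Set Y} (hR : ∀ i, MeasurableSet (R i)) :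
    ∃ U : ι → Set Y, (∀ i, IsOpen (U i)) ∧
      ∀ᶠ y in residual Y, ∀ i, (y ∈ R i ↔ y ∈ U i) := by
  have h1 := fun i => (hR i).residualEq_isOpen
  choose U hU hRU using h1
  refine ⟨U, hU, ?_⟩
  rw [eventually_countable_forall]
  intro i
  exact (hRU i).mem_iff

end Vale.Agent.P327
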