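import Vale.Agent.P327.Sel

namespace Vale.Agent.P327

open Encodable

theorem use_chain {φ ψ : ℕ → (ℕ → Bool) → (ℕ → Bool)} (g : Good φ ψ)
    {κ κ' l m : ℕ → Bool} {r : ℕ} {i₁ i₂ i₃ : ℕ × ℕ × ℕ × ℕ} {i₄ : ℕ × ℕ}
    (s₁ : ∀ x' y' : ℕ → Bool, (∀ i < r, x' i = κ i) → (∀ i < r, y' i = l i) →
      (x', y') ∈ g.U₁ i₁)
    (s₂ : ∀ x' y' : ℕ → Bool, (∀ i < r, x' i = xr (Lc κ) l i) → (∀ i < r, y' i = base κ l i) →
      (x', y') ∈ g.U₂ i₂)
    (s₃ : ∀ x' y' : ℕ → Bool, (∀ i < r, x' i = κ i) → (∀ i < r, y' i = l i) →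
      (x', y') ∈ g.U₃ i₃)
    (s₄ : ∀ x' : ℕ → Bool, (∀ i < r, x' i = xr (Mh κ) l i) → x' ∈ g.U₄ i₄)
    (hκ : ∀ p, Kc r p → κ' p = κ p) (hm : ∀ p, Kc r p → m p = base κ l p)
    (hC : Ch g κ' l m) (n : ℕ) :
    (xs κ' l m n, l) ∈ Rg φ (fun z => xr (Lc z.1) z.2) i₁ ∧
    (xr (Lc (xs κ' l m n)) l, m) ∈ Rg φ (fun z => xr z.1 z.2) i₂ ∧
    (xs κ' l m n, l) ∈ Rg φ (fun z => xr (Mh z.1) z.2) i₃ ∧
    (xr (Mh (xs κ' l m n)) l) ∈ R4 φ ψ i₄ := by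
  have ha := xs_agree hκ hm n
  obtain ⟨c₁, c₃, c₂, c₄⟩ := hC n
  have e1 : ∀ i < r, xs κ' l m n i = κ i := fun i hi => ha i (kc_of_lt hi)
  have e2 : ∀ i < r, xr (Lc (xs κ' l m n)) l i = xr (Lc κ) l i := fun i hi => by
    simp only [xr, Lc]
    rw [ha _ (kc_cs (kc_of_lt hi))]
  have e3 : ∀ i < r, m i = base κ l i := fun i hi => hm i (kc_of_lt hi)
  have e4 : ∀ i < r, xr (Mh (xs κ' l m n)) l i = xr (Mh κ) l i := fun i hi => by
    simp only [xr, Mh]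
    rw [e1 i hi]
  exact ⟨(c₁ i₁).2 (s₁ _ _ e1 fun _ _ => rfl), (c₂ i₂).2 (s₂ _ _ e2 e3),
    (c₃ i₃).2 (s₃ _ _ e1 fun _ _ => rfl), (c₄ i₄).2 (s₄ _ e4)⟩

theorem mix_eq_of_true {D σ τ τ' : ℕ → Bool} {k : ℕ} (h : D k = true) (i : ℕ) :
    mix (hat D) σ τ (Nat.pair i (2 ^ k % 2 ^ i)) =
      mix (hat D) σ τ' (Nat.pair i (2 ^ k % 2 ^ i)) := by
  have h1 : hat D (2 ^ k % 2 ^ i) = true := by
    rcases lt_or_ge k i with hk | hk
    · rw [Nat.mod_eq_of_lt (Nat.pow_lt_pow_right (by norm_num) hk), hat_pow, h]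
    · rw [Nat.mod_eq_zero_of_dvd (pow_dvd_pow 2 hk), hat_zero]
  simp only [mix, Nat.unpair_pair, h1, if_true]

theorem exists_ev {P : (ℕ → Bool) → Prop} (h : ∀ᶠ q in residual (ℕ → Bool), P q) : ∃ q, P q :=
  (dense_of_mem_residual h).nonempty

theorem half2 {π : TDeg ≃o TDeg} {F G : (ℕ → Bool) → (ℕ → Bool)}
    (hF : ∀ A, π (tdeg A) = tdeg (F A)) (hG : ∀ A, π.symm (tdeg A) = tdeg (G A))
    {B C : ℕ → Bool} (hBC : π (tdeg B) = tdeg C) : TLE B C := by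
  by_contra hB
  obtain ⟨φ, ψ, hφ, hψ, hX, hX'⟩ := claimW hF hG
  obtain ⟨g⟩ := exists_good hφ hψ
  set D₀ : ℕ → Bool := join C (fun n => !C n) with hD₀
  set D : ℕ → Bool := hat D₀ with hD
  have b0 : ∀ᶠ q in residual (ℕ → Bool), ¬ TLE B (join C q) := by
    have : IsMeagre {q | TLE B (join C q)} := by
      by_contra hm
      exact hB (cat_elim hm)
    exact this
  have S₁ : ∀ᶠ σ in residual (ℕ → Bool), ∀ᶠ τ in residual (ℕ → Bool),
      ∀ᶠ l in residual (ℕ → Bool), Bs g F (mix D σ τ) l ∧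
        ∀ᶠ m in residual (ℕ → Bool), Ch g (mix D σ τ) l m := by
    have h1 := (ev_Bs g hX hX').and (ev_Ch g)
    have om := open_mix D
    have h2 := ev_open h1 (om.1.prodMap continuous_id) (om.2.prodMap IsOpenMap.id)
    exact ku (ku h2)
  have S₂ : ∀ᶠ σ in residual (ℕ → Bool), ∀ᶠ l in residual (ℕ → Bool),
      ∀ᶠ τ' in residual (ℕ → Bool),
        ∀ᶠ m in residual (ℕ → Bool), Ch g (mix D σ τ') l m := by
    have om := open_mix D
    have h2 := ev_open (ev_Ch g) (om.1.prodMap continuous_id) (om.2.prodMap IsOpenMap.id)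
    let h : X3 ≃ₜ X2 × (ℕ → Bool) :=
      ((Homeomorph.refl _).prodCongr (Homeomorph.prodComm _ _)).trans
        (Homeomorph.prodAssoc (ℕ → Bool) (ℕ → Bool) (ℕ → Bool)).symm
    have h3 := ku (ev_open h2 h.continuous h.isOpenMap)
    filter_upwards [h3] with σ hσ
    exact ku hσ
  have S₃ : ∀ᶠ σ in residual (ℕ → Bool), ∀ᶠ τ in residual (ℕ → Bool),
      ∀ᶠ l in residual (ℕ → Bool), ∀ᶠ τ' in residual (ℕ → Bool),
      ∀ᶠ m in residual (ℕ → Bool), ¬ TLE B (join C (join σ (join τ (join l (join τ' m))))) := by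
    filter_upwards [ev_join b0] with σ h1
    filter_upwards [ev_join h1] with τ h2
    filter_upwards [ev_join h2] with l h3
    exact ev_join h3
  have S₄ : ∀ σ : ℕ → Bool, ∀ᶠ τ in residual (ℕ → Bool), ∀ a, F (mix D σ τ) = φ a (mix D σ τ) →
      ∀ U : Set (ℕ → Bool), IsOpen U → τ ∈ U →
      ¬ IsMeagre ({τ' | F (mix D σ τ') = φ a (mix D σ τ')} ∩ U) := by
    intro σ
    rw [eventually_countable_forall]
    intro a
    exact heavy {τ' | F (mix D σ τ') = φ a (mix D σ τ')}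
  obtain ⟨σ, s₁, s₂, s₃⟩ := exists_ev (S₁.and (S₂.and S₃))
  obtain ⟨τ, t₁, t₃, t₄⟩ := exists_ev (s₁.and (s₃.and (S₄ σ)))
  obtain ⟨l, ⟨hbs, hch⟩, l₂, l₃⟩ := exists_ev (t₁.and (s₂.and t₃))
  set κ := mix D σ τ with hκ
  obtain ⟨a, ha⟩ := hbs.cκ
  obtain ⟨a', ha'⟩ := hbs.cl
  obtain ⟨c, hc⟩ := hbs.cw
  obtain ⟨a'', ha''⟩ := hbs.cm
  obtain ⟨d, hd⟩ := hbs.cv
  obtain ⟨d', hd'⟩ := hbs.cv'
  obtain ⟨e₁, he₁⟩ := tle_iff_exists.1 (tle_F_join hF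
    (((left_tle_join κ l).lc).xr (right_tle_join κ l)))
  obtain ⟨e₂, he₂⟩ := tle_iff_exists.1 (tle_F_join hF
    ((left_tle_join (xr (Lc κ) l) (base κ l)).xr (right_tle_join (xr (Lc κ) l) (base κ l))))
  obtain ⟨e₃, he₃⟩ := tle_iff_exists.1 (tle_F_join hF
    (((left_tle_join κ l).mh).xr (right_tle_join κ l)))
  have hwm : xr (xr (Lc κ) l) (base κ l) = κ := by
    unfold base
    rw [xr_comm, xr_cancel]
  rw [hwm] at he₂
  have m₁ : (κ, l) ∈ g.U₁ (a, a', c, e₁) := by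
    refine (hbs.q₁ _).1 ?_
    show Red (H e₁) (join (φ a κ) (φ a' l)) (φ c (xr (Lc κ) l))
    rw [← ha, ← ha', ← hc]
    exact he₁
  have m₂ : (xr (Lc κ) l, base κ l) ∈ g.U₂ (c, a'', a, e₂) := by
    refine (hbs.q₂ _).1 ?_
    show Red (H e₂) (join (φ c (xr (Lc κ) l)) (φ a'' (base κ l)))
      (φ a (xr (xr (Lc κ) l) (base κ l)))
    rw [hwm, ← ha, ← ha'', ← hc]
    exact he₂
  have m₃ : (κ, l) ∈ g.U₃ (a, a', d, e₃) := by
    refine (hbs.q₃ _).1 ?_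
    show Red (H e₃) (join (φ a κ) (φ a' l)) (φ d (xr (Mh κ) l))
    rw [← ha, ← ha', ← hd]
    exact he₃
  have m₄ : xr (Mh κ) l ∈ g.U₄ (d, d') := by
    refine (hbs.q₄ _).1 ?_
    show ψ d' (φ d (xr (Mh κ) l)) = xr (Mh κ) l
    rw [← hd]
    exact hd'
  obtain ⟨r₁, n₁⟩ := exists_cyl2 (g.o₁ _) m₁
  obtain ⟨r₂, n₂⟩ := exists_cyl2 (g.o₂ _) m₂
  obtain ⟨r₃, n₃⟩ := exists_cyl2 (g.o₃ _) m₃
  obtain ⟨r₄, n₄⟩ := exists_cyl (g.o₄ _) m₄
  set r := max (max r₁ r₂) (max r₃ r₄) with hr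
  have q₁ : r₁ ≤ r := (le_max_left r₁ r₂).trans (le_max_left _ _)
  have q₂ : r₂ ≤ r := (le_max_right r₁ r₂).trans (le_max_left _ _)
  have q₃ : r₃ ≤ r := (le_max_left r₃ r₄).trans (le_max_right _ _)
  have q₄ : r₄ ≤ r := (le_max_right r₃ r₄).trans (le_max_right _ _)
  have u₁ : ∀ x' y' : ℕ → Bool, (∀ i < r, x' i = κ i) → (∀ i < r, y' i = l i) →
      (x', y') ∈ g.U₁ (a, a', c, e₁) := fun x' y' hx hy =>
    n₁ x' y' (fun i hi => hx i (hi.trans_le q₁)) (fun i hi => hy i (hi.trans_le q₁))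
  have u₂ : ∀ x' y' : ℕ → Bool, (∀ i < r, x' i = xr (Lc κ) l i) →
      (∀ i < r, y' i = base κ l i) → (x', y') ∈ g.U₂ (c, a'', a, e₂) := fun x' y' hx hy =>
    n₂ x' y' (fun i hi => hx i (hi.trans_le q₂)) (fun i hi => hy i (hi.trans_le q₂))
  have u₃ : ∀ x' y' : ℕ → Bool, (∀ i < r, x' i = κ i) → (∀ i < r, y' i = l i) →
      (x', y') ∈ g.U₃ (a, a', d, e₃) := fun x' y' hx hy =>
    n₃ x' y' (fun i hi => hx i (hi.trans_le q₃)) (fun i hi => hy i (hi.trans_le q₃))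
  have u₄ : ∀ x' : ℕ → Bool, (∀ i < r, x' i = xr (Mh κ) l i) → x' ∈ g.U₄ (d, d') :=
    fun x' hx => n₄ x' (fun i hi => hx i (hi.trans_le q₄))
  set R := Nat.pair r (2 ^ r + r) with hR
  obtain ⟨τ', ⟨v₁, v₂⟩, v₃, v₄, v₅⟩ := exists_of_not_meagre
    (t₄ a ha _ (isOpen_cyl τ R) (fun _ _ => rfl)) (l₂.and (l₃.and (ev_differ τ)))
  set κ' := mix D σ τ' with hκ'
  obtain ⟨m, ⟨w₁, w₂⟩, w₃, w₄, w₅⟩ := exists_of_not_meagre
    (hbs.hv a'' ha'' _ (isOpen_cyl (base κ l) R) (fun _ _ => rfl)) (hch.and (v₃.and v₄))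
  have k₁ : ∀ p, Kc r p → κ' p = κ p := by
    intro p hp
    have := v₂ p (kc_lt hp)
    rw [hκ, hκ']
    unfold mix
    rw [this]
  have k₂ : ∀ p, Kc r p → m p = base κ l p := fun p hp => w₂ p (kc_lt hp)
  have X := use_chain g u₁ u₂ u₃ u₄ (fun _ _ => rfl) k₂ w₃
  have X' := use_chain g u₁ u₂ u₃ u₄ k₁ k₂ w₄
  have main := decode2 (C := C) (H_fn e₁) (H_fn e₂) (H_fn e₃)
    (y := fun n => φ a (xs κ l m n)) (w := fun n => φ c (xr (Lc (xs κ l m n)) l))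
    (z := fun n => φ d (xr (Mh (xs κ l m n)) l))
    (y' := fun n => φ a (xs κ' l m n)) (w' := fun n => φ c (xr (Lc (xs κ' l m n)) l))
    (z' := fun n => φ d (xr (Mh (xs κ' l m n)) l)) (p₁ := φ a' l) (p₂ := φ a'' m)
    (fun n => (X n).1) (fun n => (X n).2.1) (fun n => (X n).2.2.1)
    (fun n => (X' n).1) (fun n => (X' n).2.1) (fun n => (X' n).2.2.1)
    (by
      intro k hk
      have : xr (Mh (xs κ l m (2 ^ k))) l = xr (Mh (xs κ' l m (2 ^ k))) l := by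
        rw [vs_eq_iff]
        intro i
        exact mix_eq_of_true hk i
      show φ d _ = φ d _
      rw [this])
    (by
      intro k hk heq
      have h1 : ψ d' (φ d (xr (Mh (xs κ l m (2 ^ k))) l)) = xr (Mh (xs κ l m (2 ^ k))) l :=
        (X (2 ^ k)).2.2.2
      have h2 : ψ d' (φ d (xr (Mh (xs κ' l m (2 ^ k))) l)) = xr (Mh (xs κ' l m (2 ^ k))) l :=
        (X' (2 ^ k)).2.2.2
      have heq' : φ d (xr (Mh (xs κ l m (2 ^ k))) l) = φ d (xr (Mh (xs κ' l m (2 ^ k))) l) := heq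
      rw [heq', h2] at h1
      have h3 := (vs_eq_iff κ κ' l m (2 ^ k)).1 h1.symm
      obtain ⟨i, hi, hne⟩ := v₅ k
      have h4 := h3 i
      rw [Nat.mod_eq_of_lt (Nat.pow_lt_pow_right (by norm_num) hi)] at h4
      apply hne
      have h5 : D (2 ^ k) = false := by rw [hD, hat_pow]; exact hk
      rw [hκ, hκ'] at h4
      simpa only [mix, Nat.unpair_pair, h5, Bool.false_eq_true, if_false] using h4)
  set Q := join C (join σ (join τ (join l (join τ' m)))) with hQ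
  have pC : TLE C Q := left_tle_join _ _
  have p₀ : TLE (join σ (join τ (join l (join τ' m)))) Q := right_tle_join _ _
  have pσ : TLE σ Q := (left_tle_join _ _).trans p₀
  have p₁ : TLE (join τ (join l (join τ' m))) Q := (right_tle_join _ _).trans p₀
  have pτ : TLE τ Q := (left_tle_join _ _).trans p₁
  have p₂ : TLE (join l (join τ' m)) Q := (right_tle_join _ _).trans p₁
  have pl : TLE l Q := (left_tle_join _ _).trans p₂
  have p₃ : TLE (join τ' m) Q := (right_tle_join _ _).trans p₂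
  have pτ' : TLE τ' Q := (left_tle_join _ _).trans p₃
  have pm : TLE m Q := (right_tle_join _ _).trans p₃
  have pD : TLE D Q := hat_tle (join_tle pC (pC.map₂ pC (fun x _ => !x)))
  have pκ : TLE κ Q := pD.mix pσ pτ
  have pκ' : TLE κ' Q := pD.mix pσ pτ'
  have z₁ : TLE (φ a κ) (F Q) := by rw [← ha]; exact (tle_F_iff hF).2 pκ
  have z₂ : TLE (φ a κ') (F Q) := by
    have : F κ' = φ a κ' := v₁
    rw [← this]; exact (tle_F_iff hF).2 pκ'
  have z₃ : TLE (φ a' l) (F Q) := by rw [← ha']; exact (tle_F_iff hF).2 pl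
  have z₄ : TLE (φ a'' m) (F Q) := by
    have : F m = φ a'' m := w₁
    rw [← this]; exact (tle_F_iff hF).2 pm
  have fin : TLE C (F Q) := main.trans (join_tle (join_tle z₁ (join_tle z₃ z₄))
    (join_tle z₂ (join_tle z₃ z₄)))
  apply w₅
  show TLE B Q
  rw [← tdeg_le, ← π.le_iff_le, hBC, hF]
  exact fin

theorem exists_rep (π : TDeg ≃o TDeg) :
    ∃ F : (ℕ → Bool) → (ℕ → Bool), ∀ A, π (tdeg A) = tdeg (F A) := by
  have h : ∀ A : ℕ → Bool, ∃ B, π (tdeg A) = tdeg B := by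
    intro A
    generalize π (tdeg A) = d
    induction d using TDeg.ind with
    | h B => exact ⟨B, rfl⟩
  choose F hF using h
  exact ⟨F, hF⟩

end Vale.Agent.P327
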