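import Vale.Agent.P327.SetDefs
import Vale.Agent.P327.Rigid

namespace Vale.Agent.P327

open Classical in
noncomputable def degOf (X : Set ℕ) : TDeg := tdeg fun n => decide (n ∈ X)

theorem charFun_eq (X : Set ℕ) : charFun X = chi (open Classical in fun n => decide (n ∈ X)) := by
  classical
  funext n
  by_cases h : n ∈ X <;> simp [charFun, chi, h]

theorem setLE_iff (X Y : Set ℕ) : SetLE X Y ↔ degOf X ≤ degOf Y := by
  rw [SetLE, charFun_eq, charFun_eq, degOf, degOf, tdeg_le, TLE]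

theorem degOf_eq (X Y : Set ℕ) : degOf X = degOf Y ↔ SetLE X Y ∧ SetLE Y X := by
  rw [setLE_iff, setLE_iff, degOf, degOf, tdeg_eq, tdeg_le, tdeg_le]

theorem degOf_surj : Function.Surjective degOf := by
  intro d
  induction d using TDeg.ind with
  | h A =>
    refine ⟨{n | A n = true}, ?_⟩
    rw [degOf]
    congr 1
    funext n
    simp

theorem fiber_eq (A : Set ℕ) :
    {B : Set ℕ | SetLE A B ∧ SetLE B A} = degOf ⁻¹' {degOf A} := by
  ext B
  rw [Set.mem_preimage, Set.mem_singleton_iff, eq_comm, degOf_eq]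
  exact Iff.rfl

theorem mem_degrees (a : Set (Set ℕ)) : a ∈ Degrees ↔ ∃ d, a = degOf ⁻¹' {d} := by
  constructor
  · rintro ⟨A, rfl⟩
    exact ⟨degOf A, fiber_eq A⟩
  · rintro ⟨d, rfl⟩
    obtain ⟨A, rfl⟩ := degOf_surj d
    exact ⟨A, (fiber_eq A).symm⟩

theorem fiber_inj {d e : TDeg} (h : degOf ⁻¹' {d} = degOf ⁻¹' {e}) : d = e := by
  obtain ⟨A, rfl⟩ := degOf_surj d
  have : A ∈ degOf ⁻¹' {e} := h ▸ (rfl : degOf A = degOf A)
  exact this

theorem degLE_iff (d e : TDeg) : DegLE (degOf ⁻¹' {d}) (degOf ⁻¹' {e}) ↔ d ≤ e := by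
  constructor
  · rintro ⟨A, rfl, B, rfl, h⟩
    exact (setLE_iff A B).1 h
  · intro h
    obtain ⟨A, rfl⟩ := degOf_surj d
    obtain ⟨B, rfl⟩ := degOf_surj e
    exact ⟨A, rfl, B, rfl, (setLE_iff A B).2 h⟩

theorem exists_iso {π : Set (Set ℕ) → Set (Set ℕ)} (hπ : Set.BijOn π Degrees Degrees)
    (hle : ∀ a ∈ Degrees, ∀ b ∈ Degrees, (DegLE a b ↔ DegLE (π a) (π b))) :
    ∃ e : TDeg ≃o TDeg, ∀ d, π (degOf ⁻¹' {d}) = degOf ⁻¹' {e d} := by
  have h1 : ∀ d, ∃ d', π (degOf ⁻¹' {d}) = degOf ⁻¹' {d'} := fun d =>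
    (mem_degrees _).1 (hπ.mapsTo ((mem_degrees _).2 ⟨d, rfl⟩))
  choose f hf using h1
  have hinj : Function.Injective f := by
    intro d d' h
    apply fiber_inj
    apply hπ.injOn ((mem_degrees _).2 ⟨d, rfl⟩) ((mem_degrees _).2 ⟨d', rfl⟩)
    rw [hf, hf, h]
  have hsurj : Function.Surjective f := by
    intro d'
    obtain ⟨a, ha, hb⟩ := hπ.surjOn ((mem_degrees (degOf ⁻¹' {d'})).2 ⟨d', rfl⟩)
    obtain ⟨d, rfl⟩ := (mem_degrees a).1 ha
    exact ⟨d, fiber_inj (by rw [← hf, hb])⟩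
  refine ⟨⟨Equiv.ofBijective f ⟨hinj, hsurj⟩, ?_⟩, hf⟩
  intro d d'
  have := hle _ ((mem_degrees _).2 ⟨d, rfl⟩) _ ((mem_degrees _).2 ⟨d', rfl⟩)
  rw [degLE_iff, hf, hf, degLE_iff] at this
  exact this.symm

theorem aut_eq (π : TDeg ≃o TDeg) (d : TDeg) : π d = d := by
  obtain ⟨F, hF⟩ := exists_rep π
  obtain ⟨G, hG⟩ := exists_rep π.symm
  induction d using TDeg.ind with
  | h A =>
    rw [hF, tdeg_eq]
    refine ⟨half2 hG (by simpa using hF) ?_, half2 hF hG (hF A)⟩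
    rw [← hF, π.symm_apply_apply]

end Vale.Agent.P327
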