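import Vale.Agent.P327.Shift

namespace Vale.Agent.P327

open Encodable

section half

variable {π : TDeg ≃o TDeg} {F : (ℕ → Bool) → (ℕ → Bool)}

theorem tle_F_iff (hπ : ∀ A, π (tdeg A) = tdeg (F A)) {A B : ℕ → Bool} :
    TLE (F A) (F B) ↔ TLE A B := by
  rw [← tdeg_le, ← hπ, ← hπ]
  exact π.le_iff_le

theorem tle_F_join (hπ : ∀ A, π (tdeg A) = tdeg (F A)) {x y z : ℕ → Bool}
    (h : TLE z (join x y)) : TLE (F z) (join (F x) (F y)) := by
  obtain ⟨d, hd⟩ := π.surjective (tdeg (join (F x) (F y)))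
  induction d using TDeg.ind with
  | h D =>
    have hx : TLE x D := by
      rw [← tdeg_le, ← π.le_iff_le, hd, hπ]
      exact left_tle_join _ _
    have hy : TLE y D := by
      rw [← tdeg_le, ← π.le_iff_le, hd, hπ]
      exact right_tle_join _ _
    have hz : TLE z D := h.trans (join_tle hx hy)
    rw [← tdeg_le, ← π.le_iff_le, hd, hπ] at hz
    exact hz

theorem ev_all {P : ℕ → ℕ → (ℕ → Bool) → Prop}
    (h : ∀ r n, ∀ᶠ q in residual (ℕ → Bool), P r n q) :
    ∀ᶠ q in residual (ℕ → Bool), ∀ r n, P r n q := by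
  rw [eventually_countable_forall]
  intro r
  rw [eventually_countable_forall]
  exact h r

theorem get_local (hπ : ∀ A, π (tdeg A) = tdeg (F A)) (hF : Measurable F)
    {f : (ℕ → Bool) → (ℕ → Bool) → (ℕ → Bool)}
    (hf : Measurable fun q => f (lft q) (rgt q))
    (hf2 : ∀ x y, TLE (f x y) (join x y)) :
    ∃ U : ℕ → Set (ℕ → Bool), (∀ e, IsOpen (U e)) ∧
      (∀ᶠ q in residual (ℕ → Bool), ∃ e, q ∈ U e) ∧
      ∀ᶠ q in residual (ℕ → Bool), ∀ e, q ∈ U e →
        Red (H e) (join (F (lft q)) (F (rgt q))) (F (f (lft q) (rgt q))) := by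
  refine local_index (T := fun e => {q | Red (H e) (join (F (lft q)) (F (rgt q)))
    (F (f (lft q) (rgt q)))}) ?_ ?_
  · intro e
    exact measurableSet_red (H e) (measurable_join (hF.comp measurable_lft)
      (hF.comp measurable_rgt)) (hF.comp hf)
  · intro q
    exact tle_iff_exists.1 (tle_F_join hπ (hf2 _ _))

theorem core (hπ : ∀ A, π (tdeg A) = tdeg (F A)) (hF : Measurable F)
    {C : ℕ → Bool} (hC : ¬ TLE C zr) :
    ∀ᶠ q in residual (ℕ → Bool), TLE C (F (join C q)) := by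
  have m1 : Measurable fun q : ℕ → Bool => f1 (lft q) (rgt q) :=
    (continuous_xr (continuous_idx continuous_lft sh) continuous_rgt).measurable
  have m2 : Measurable fun q : ℕ → Bool => xr (lft q) (rgt q) :=
    (continuous_xr continuous_lft continuous_rgt).measurable
  have c3 : Continuous fun q : ℕ → Bool => Mc (lft q) := by
    refine continuous_pi fun n => ?_
    exact (continuous_of_discreteTopology (f := fun x : Bool =>
      decide (n.unpair.1 = 0) && x)).comp ((continuous_apply n).comp continuous_lft)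
  have m3 : Measurable fun q : ℕ → Bool => f3 (lft q) (rgt q) :=
    (continuous_xr c3 continuous_rgt).measurable
  obtain ⟨U₁, o₁, a₁, b₁⟩ := get_local hπ hF m1
    fun x y => ((left_tle_join x y).lam).xr (right_tle_join x y)
  obtain ⟨U₂, o₂, a₂, b₂⟩ := get_local hπ hF m2
    fun x y => (left_tle_join x y).xr (right_tle_join x y)
  obtain ⟨U₃, o₃, a₃, b₃⟩ := get_local hπ hF m3
    fun x y => ((left_tle_join x y).mc).xr (right_tle_join x y)
  have t₁ := ev_all fun r n => ev_homeo (xrH (join (Del C r n) zr)) b₁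
  have t₂ := ev_all fun r n => ev_homeo (ThH.trans (xrH (join (Del C r (n + 1)) zr))) b₂
  have t₃ := ev_all fun r n => ev_homeo (xrH (join (Del C r n) zr)) b₃
  have a₂' := ev_homeo ThH a₂
  filter_upwards [a₁, a₂', a₃, t₁, t₂, t₃, eventually_not_tle hC] with q h₁ h₂ h₃ g₁ g₂ g₃ hq
  obtain ⟨e₁, h₁⟩ := h₁
  obtain ⟨e₂, h₂⟩ := h₂
  obtain ⟨e₃, h₃⟩ := h₃
  obtain ⟨r₁, s₁⟩ := exists_cyl (o₁ e₁) h₁
  obtain ⟨r₂, s₂⟩ := exists_cyl (o₂ e₂) h₂
  obtain ⟨r₃, s₃⟩ := exists_cyl (o₃ e₃) h₃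
  set r := max r₁ (max r₂ r₃) with hr
  have k₁ : r₁ ≤ r := le_max_left _ _
  have k₂ : r₂ ≤ r := (le_max_left r₂ r₃).trans (le_max_right _ _)
  have k₃ : r₃ ≤ r := (le_max_right r₂ r₃).trans (le_max_right _ _)
  have hd : ∀ n m, m < r → join (Del C r n) zr m = false := fun n m hm =>
    join_zr_lt (fun m hm => del_lt C hm) hm
  have u₁ := fun n => g₁ r n e₁ (s₁ _ fun i hi => by
    show xor (q i) (join (Del C r n) zr i) = q i
    rw [hd n i (hi.trans_le k₁), Bool.xor_false])
  have u₂ := fun n => g₂ r n e₂ (s₂ _ fun i hi => by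
    show xor (Th q i) (join (Del C r (n + 1)) zr i) = Th q i
    rw [hd (n + 1) i (hi.trans_le k₂), Bool.xor_false])
  have u₃ := fun n => g₃ r n e₃ (s₃ _ fun i hi => by
    show xor (q i) (join (Del C r n) zr i) = q i
    rw [hd n i (hi.trans_le k₃), Bool.xor_false])
  have E₁ : ∀ n, lft (xr q (join (Del C r n) zr)) = xr (lft q) (Del C r n) := fun n => by
    rw [lft_xr, lft_join]
  have E₂ : ∀ n, rgt (xr q (join (Del C r n) zr)) = rgt q := fun n => by
    rw [rgt_xr, rgt_join, xr_zr]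
  have E₃ : ∀ n, lft (xr (Th q) (join (Del C r (n + 1)) zr)) =
      xr (xr (Lam (lft q)) (rgt q)) (Del C r (n + 1)) := fun n => by
    rw [lft_xr, lft_join, Th, lft_join]
  have E₄ : ∀ n, rgt (xr (Th q) (join (Del C r (n + 1)) zr)) =
      xr (lft q) (xr (Lam (lft q)) (rgt q)) := fun n => by
    rw [rgt_xr, rgt_join, xr_zr, Th, rgt_join]
  have R₁ : ∀ n, Red (H e₁) (join (F (xr (lft q) (Del C r n))) (F (rgt q)))
      (F (xr (xr (Lam (lft q)) (rgt q)) (Del C r (n + 1)))) := by
    intro n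
    have h := u₁ n
    change Red (H e₁) (join (F (lft (xr q (join (Del C r n) zr))))
      (F (rgt (xr q (join (Del C r n) zr))))) (F (f1 (lft (xr q (join (Del C r n) zr)))
      (rgt (xr q (join (Del C r n) zr))))) at h
    rw [E₁, E₂, f1_del] at h
    exact h
  have R₂ : ∀ n, Red (H e₂) (join (F (xr (xr (Lam (lft q)) (rgt q)) (Del C r (n + 1))))
      (F (xr (lft q) (xr (Lam (lft q)) (rgt q))))) (F (xr (lft q) (Del C r (n + 1)))) := by
    intro n
    have h := u₂ n
    change Red (H e₂) (join (F (lft (xr (Th q) (join (Del C r (n + 1)) zr))))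
      (F (rgt (xr (Th q) (join (Del C r (n + 1)) zr)))))
      (F (xr (lft (xr (Th q) (join (Del C r (n + 1)) zr)))
      (rgt (xr (Th q) (join (Del C r (n + 1)) zr))))) at h
    rw [E₃, E₄, f2_del] at h
    exact h
  have R₃ : ∀ n, Red (H e₃) (join (F (xr (lft q) (Del C r n))) (F (rgt q)))
      (if C n = true then F (xr (xr (Mc (lft q)) (rgt q)) (vh C r))
        else F (xr (Mc (lft q)) (rgt q))) := by
    intro n
    have h := u₃ n
    change Red (H e₃) (join (F (lft (xr q (join (Del C r n) zr))))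
      (F (rgt (xr q (join (Del C r n) zr))))) (F (f3 (lft (xr q (join (Del C r n) zr)))
      (rgt (xr q (join (Del C r n) zr))))) at h
    rw [E₁, E₂, f3_del, apply_ite F] at h
    exact h
  have lq : TLE (lft q) q := lft_tle q
  have rq : TLE (rgt q) q := rgt_tle q
  have hne : F (xr (Mc (lft q)) (rgt q)) ≠ F (xr (xr (Mc (lft q)) (rgt q)) (vh C r)) := by
    intro heq
    have h1 : TLE (xr (xr (Mc (lft q)) (rgt q)) (vh C r)) (xr (Mc (lft q)) (rgt q)) := by
      rw [← tle_F_iff hπ, ← heq]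
      exact TLE.refl _
    have h2 : TLE (vh C r) (xr (Mc (lft q)) (rgt q)) := by
      have := (TLE.refl (xr (Mc (lft q)) (rgt q))).xr h1
      rwa [xr_cancel'] at this
    exact hq ((tle_of_vh h2).trans (lq.mc.xr rq))
  have main := decode_lemma (H_fn e₁) (H_fn e₂) (H_fn e₃) hne R₁ R₂ R₃
  have qJ : TLE q (join C q) := right_tle_join C q
  have CJ : TLE C (join C q) := left_tle_join C q
  have lJ := lq.trans qJ
  have rJ := rq.trans qJ
  refine main.trans (join_tle ((tle_F_iff hπ).2 (lJ.xr (CJ.del r)))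
    (join_tle ((tle_F_iff hπ).2 rJ) ((tle_F_iff hπ).2 (lJ.xr (lJ.lam.xr rJ)))))

theorem half (hπ : ∀ A, π (tdeg A) = tdeg (F A)) (hF : Measurable F)
    {B C : ℕ → Bool} (hBC : π (tdeg B) = tdeg C) : TLE B C := by
  have zl : ∀ X : ℕ → Bool, TLE zr X := fun X => TLE.primrec (Primrec.const false)
  by_cases hC : TLE C zr
  · rw [← tdeg_le, ← π.le_iff_le, hBC, hπ, tdeg_le]
    exact hC.trans (zl _)
  · apply cat_elim
    apply not_isMeagre_of_mem_residual
    filter_upwards [core hπ hF hC] with q hq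
    show TLE B (join C q)
    rw [← tdeg_le, ← π.le_iff_le, hBC, hπ]
    exact hq

end half

theorem exists_inv {π : TDeg ≃o TDeg} {F : (ℕ → Bool) → (ℕ → Bool)}
    (hπ : ∀ A, π (tdeg A) = tdeg (F A)) (hF : Measurable F) :
    ∃ G : (ℕ → Bool) → (ℕ → Bool), Measurable G ∧ ∀ A, π.symm (tdeg A) = tdeg (G A) := by
  have hex : ∀ X : ℕ → Bool, ∃ e, TLE (F (ev (H e) X)) X ∧ TLE X (F (ev (H e) X)) := by
    intro X
    obtain ⟨d, hd⟩ := π.surjective (tdeg X)
    induction d using TDeg.ind with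
    | h D =>
      obtain ⟨e, he⟩ := tle_iff_exists.1 (half hπ hF hd)
      refine ⟨e, ?_⟩
      rw [ev_eq (H_fn e) he, ← tdeg_eq, ← hπ, hd]
  classical
  refine ⟨fun X => ev (H (Nat.find (hex X))) X, ?_, ?_⟩
  · have hs : ∀ e, MeasurableSet {X | TLE (F (ev (H e) X)) X ∧ TLE X (F (ev (H e) X))} :=
      fun e => (measurableSet_tle (hF.comp (measurable_ev _)) measurable_id).inter
        (measurableSet_tle measurable_id (hF.comp (measurable_ev _)))
    exact Measurable.find (fun e => measurable_ev (H e)) hs hex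
  · intro A
    have h := Nat.find_spec (hex A)
    rw [← tdeg_eq, ← hπ] at h
    rw [← h, π.symm_apply_apply]

end Vale.Agent.P327
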