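import Vale.Agent.P327.Cat

namespace Vale.Agent.P327

open Encodable

theorem measurableSet_pre (k : ℕ) (S : Set PL) :
    MeasurableSet {X : ℕ → Bool | pre X k ∈ S} := by
  induction k generalizing S with
  | zero =>
    have : ∀ X : ℕ → Bool, pre X 0 = [] := fun X => rfl
    simp only [this]
    exact MeasurableSet.const _
  | succ k ih =>
    have : {X : ℕ → Bool | pre X (k + 1) ∈ S} = ⋃ b : Bool,
        ({X : ℕ → Bool | X k = b} ∩ {X | pre X k ∈ {p | p ++ [some b] ∈ S}}) := by
      ext X
      simp only [Set.mem_iUnion, Set.mem_inter_iff, Set.mem_ofPred_eq, pre_succ]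
      constructor
      · intro h; exact ⟨X k, rfl, h⟩
      · rintro ⟨b, hb, h⟩; rwa [hb]
    rw [this]
    refine MeasurableSet.iUnion fun b => MeasurableSet.inter ?_ (ih _)
    exact measurableSet_eq_fun (measurable_pi_apply k) measurable_const

theorem measurableSet_red (h : PL → ℕ → Option Bool) {α : Type} [MeasurableSpace α]
    {f g : α → ℕ → Bool} (hf : Measurable f) (hg : Measurable g) :
    MeasurableSet {a | Red h (f a) (g a)} := by
  have : {a | Red h (f a) (g a)} = ⋂ i, ⋃ k, ⋃ b : Bool,
      ((g ⁻¹' {Y | Y i = b}) ∩ (f ⁻¹' {X | pre X k ∈ {p | h p i = some b}})) := by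
    ext a
    simp only [Red, Set.mem_iInter, Set.mem_iUnion, Set.mem_inter_iff, Set.mem_preimage,
      Set.mem_ofPred_eq]
    refine forall_congr' fun i => exists_congr fun k => ?_
    constructor
    · intro h'; exact ⟨_, rfl, h'⟩
    · rintro ⟨b, hb, h'⟩; rwa [hb]
  rw [this]
  refine MeasurableSet.iInter fun i => MeasurableSet.iUnion fun k => MeasurableSet.iUnion fun b =>
    MeasurableSet.inter (hg ?_) (hf (measurableSet_pre k _))
  exact measurableSet_eq_fun (measurable_pi_apply i) measurable_const

theorem measurableSet_tle {α : Type} [MeasurableSpace α]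
    {f g : α → ℕ → Bool} (hf : Measurable f) (hg : Measurable g) :
    MeasurableSet {a | TLE (f a) (g a)} := by
  have : {a | TLE (f a) (g a)} = ⋃ e, {a | Red (H e) (g a) (f a)} := by
    ext a
    simp only [Set.mem_iUnion, Set.mem_ofPred_eq]
    exact tle_iff_exists
  rw [this]
  exact MeasurableSet.iUnion fun e => measurableSet_red _ hg hf

theorem measurable_join {α : Type} [MeasurableSpace α]
    {f g : α → ℕ → Bool} (hf : Measurable f) (hg : Measurable g) :
    Measurable fun a => join (f a) (g a) := by
  refine measurable_pi_lambda _ fun n => ?_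
  by_cases hn : n % 2 = 0
  · simp only [join, hn, if_true]
    exact (measurable_pi_apply _).comp hf
  · simp only [join, hn, if_false]
    exact (measurable_pi_apply _).comp hg

theorem measurable_lft : Measurable lft :=
  measurable_pi_lambda _ fun n => measurable_pi_apply (2 * n)

theorem measurable_rgt : Measurable rgt :=
  measurable_pi_lambda _ fun n => measurable_pi_apply (2 * n + 1)

open Classical in
noncomputable def ev (h : PL → ℕ → Option Bool) (X : ℕ → Bool) (i : ℕ) : Bool :=
  decide (∃ k, h (pre X k) i = some true)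

theorem measurable_ev (h : PL → ℕ → Option Bool) : Measurable (ev h) := by
  refine measurable_pi_lambda _ fun i => measurable_to_bool ?_
  have : (fun X => ev h X i) ⁻¹' {true} = ⋃ k, {X | pre X k ∈ {p | h p i = some true}} := by
    ext X
    simp [ev]
  rw [this]
  exact MeasurableSet.iUnion fun k => measurableSet_pre k _

theorem ev_eq {h : PL → ℕ → Option Bool} (hh : Fn h) {X Y : ℕ → Bool} (hr : Red h X Y) :
    ev h X = Y := by
  funext i
  unfold ev
  cases hY : Y i with
  | true =>
    obtain ⟨k, hk⟩ := hr i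
    rw [hY] at hk
    simpa using ⟨k, hk⟩
  | false =>
    simp only [decide_eq_false_iff_not]
    rintro ⟨k, hk⟩
    have := hr.sound hh (agr_pre X k) hk
    rw [hY] at this
    exact absurd this (by simp)

theorem local_index {T : ℕ → Set (ℕ → Bool)} (hT : ∀ e, MeasurableSet (T e))
    (hcov : ∀ q, ∃ e, q ∈ T e) :
    ∃ U : ℕ → Set (ℕ → Bool), (∀ e, IsOpen (U e)) ∧
      (∀ᶠ q in residual (ℕ → Bool), ∃ e, q ∈ U e) ∧
      ∀ᶠ q in residual (ℕ → Bool), ∀ e, q ∈ U e → q ∈ T e := by
  have h1 := fun e => (hT e).residualEq_isOpen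
  choose U hU hUT using h1
  have h2 : ∀ᶠ q in residual (ℕ → Bool), ∀ e, (q ∈ T e ↔ q ∈ U e) := by
    rw [eventually_countable_forall]
    intro e
    exact (hUT e).mem_iff
  refine ⟨U, hU, ?_, ?_⟩
  · filter_upwards [h2] with q hq
    obtain ⟨e, he⟩ := hcov q
    exact ⟨e, (hq e).1 he⟩
  · filter_upwards [h2] with q hq e he
    exact (hq e).2 he

end Vale.Agent.P327
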