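import Vale.Agent.P327.Defs

namespace Vale.Agent.P327

abbrev PL := List (Option Bool)

def rd (p : PL) (n : ℕ) : Option Bool := p.getD n none

def Sub (p q : PL) : Prop := p.length ≤ q.length ∧ ∀ n b, rd p n = some b → rd q n = some b

def pre (A : ℕ → Bool) (k : ℕ) : PL := (List.range k).map fun i => some (A i)

@[simp] theorem length_pre (A : ℕ → Bool) (k : ℕ) : (pre A k).length = k := by simp [pre]

theorem rd_pre (A : ℕ → Bool) (k n : ℕ) : rd (pre A k) n = if n < k then some (A n) else none := by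
  unfold rd pre
  rw [List.getD_eq_getElem?_getD, List.getElem?_map]
  by_cases h : n < k
  · simp [h]
  · simp [h]

theorem rd_pre_some {A : ℕ → Bool} {k n : ℕ} {b : Bool} (h : rd (pre A k) n = some b) :
    A n = b := by
  rw [rd_pre] at h
  split_ifs at h
  exact Option.some.inj h

theorem rd_lt {p : PL} {n : ℕ} {b : Bool} (h : rd p n = some b) : n < p.length := by
  by_contra hn
  push Not at hn
  unfold rd at h
  rw [List.getD_eq_getElem?_getD, List.getElem?_eq_none hn] at h
  simp at h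

theorem Sub.refl (p : PL) : Sub p p := ⟨le_rfl, fun _ _ h => h⟩

theorem Sub.trans {p q r : PL} (h : Sub p q) (k : Sub q r) : Sub p r :=
  ⟨h.1.trans k.1, fun n b hb => k.2 n b (h.2 n b hb)⟩

theorem sub_pre (A : ℕ → Bool) {k l : ℕ} (h : k ≤ l) : Sub (pre A k) (pre A l) := by
  refine ⟨by simpa using h, fun n b hb => ?_⟩
  have h1 := rd_lt hb
  rw [length_pre] at h1
  rw [rd_pre, if_pos (h1.trans_le h), rd_pre_some hb]

theorem sub_pre_of_agree {A : ℕ → Bool} {p : PL} (hp : ∀ n b, rd p n = some b → b = A n) :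
    Sub p (pre A p.length) := by
  refine ⟨by simp, fun n b hb => ?_⟩
  rw [rd_pre, if_pos (rd_lt hb), hp n b hb]

theorem pre_sub_of {A : ℕ → Bool} {p : PL} {k : ℕ} (hk : k ≤ p.length)
    (hp : ∀ n < k, rd p n = some (A n)) : Sub (pre A k) p := by
  refine ⟨by simpa using hk, fun n b hb => ?_⟩
  have h1 := rd_lt hb
  rw [length_pre] at h1
  rw [hp n h1, rd_pre_some hb]

def Mono {α : Type} (h : PL → ℕ → Option α) : Prop :=
  ∀ p q n v, Sub p q → h p n = some v → h q n = some v

theorem primrec_rd : Primrec₂ rd := Primrec.list_getD none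

def IsFun (A : ℕ → Bool) (f : ℕ → Part ℕ) (h : PL → ℕ → Option ℕ) : Prop :=
  Primrec₂ h ∧ Mono h ∧ ∀ n v, v ∈ f n ↔ ∃ k, h (pre A k) n = some v

theorem isFun_const_like {A : ℕ → Bool} {g : ℕ → ℕ} (hg : Primrec g) :
    IsFun A (fun n => Part.some (g n)) (fun _ n => some (g n)) := by
  refine ⟨?_, ?_, ?_⟩
  · exact Primrec.option_some.comp (hg.comp Primrec.snd)
  · intro p q n v _ h; exact h
  · intro n v
    simp [eq_comm]

theorem isFun_oracle (A : ℕ → Bool) :
    IsFun A (chi A) (fun p n => (rd p n).map Bool.toNat) := by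
  refine ⟨?_, ?_, ?_⟩
  · refine Primrec.option_map primrec_rd ?_
    exact (Primrec.dom_bool Bool.toNat).comp Primrec.snd
  · intro p q n v hs h
    rw [Option.map_eq_some_iff] at h ⊢
    obtain ⟨b, hb, rfl⟩ := h
    exact ⟨b, hs.2 n b hb, rfl⟩
  · intro n v
    simp only [chi, Part.mem_some_iff, Option.map_eq_some_iff]
    constructor
    · rintro rfl
      exact ⟨n + 1, A n, by simp [rd_pre], rfl⟩
    · rintro ⟨k, b, hb, rfl⟩
      rw [rd_pre_some hb]

theorem isFun_pair {A : ℕ → Bool} {f g : ℕ → Part ℕ} {hf hg : PL → ℕ → Option ℕ}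
    (Hf : IsFun A f hf) (Hg : IsFun A g hg) :
    IsFun A (fun n => (Nat.pair <$> f n <*> g n))
      (fun p n => (hf p n).bind fun a => (hg p n).map fun b => Nat.pair a b) := by
  obtain ⟨f1, f2, f3⟩ := Hf
  obtain ⟨g1, g2, g3⟩ := Hg
  refine ⟨?_, ?_, ?_⟩
  · refine Primrec.option_bind f1 ?_
    refine Primrec.option_map (g1.comp (Primrec.fst.comp Primrec.fst)
      (Primrec.snd.comp Primrec.fst)) ?_
    exact Primrec₂.natPair.comp (Primrec.snd.comp Primrec.fst) Primrec.snd
  · intro p q n v hs h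
    rw [Option.bind_eq_some_iff] at h ⊢
    obtain ⟨a, ha, h⟩ := h
    rw [Option.map_eq_some_iff] at h
    obtain ⟨b, hb, h⟩ := h
    refine ⟨a, f2 _ _ _ _ hs ha, ?_⟩
    rw [Option.map_eq_some_iff]
    exact ⟨b, g2 _ _ _ _ hs hb, h⟩
  · intro n v
    have : v ∈ (Nat.pair <$> f n <*> g n) ↔ ∃ a ∈ f n, ∃ b ∈ g n, Nat.pair a b = v := by
      simp [Seq.seq]
    rw [this]
    constructor
    · rintro ⟨a, ha, b, hb, rfl⟩
      obtain ⟨k, hk⟩ := (f3 n a).1 ha
      obtain ⟨l, hl⟩ := (g3 n b).1 hb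
      refine ⟨max k l, ?_⟩
      beta_reduce
      rw [f2 _ _ _ _ (sub_pre A (le_max_left k l)) hk, Option.bind_some,
        g2 _ _ _ _ (sub_pre A (le_max_right k l)) hl]
      rfl
    · rintro ⟨k, hk⟩
      rw [Option.bind_eq_some_iff] at hk
      obtain ⟨a, ha, h⟩ := hk
      rw [Option.map_eq_some_iff] at h
      obtain ⟨b, hb, h⟩ := h
      exact ⟨a, (f3 n a).2 ⟨k, ha⟩, b, (g3 n b).2 ⟨k, hb⟩, h⟩

theorem isFun_comp {A : ℕ → Bool} {f g : ℕ → Part ℕ} {hf hg : PL → ℕ → Option ℕ}
    (Hf : IsFun A f hf) (Hg : IsFun A g hg) :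
    IsFun A (fun n => g n >>= f)
      (fun p n => (hg p n).bind fun a => hf p a) := by
  obtain ⟨f1, f2, f3⟩ := Hf
  obtain ⟨g1, g2, g3⟩ := Hg
  refine ⟨?_, ?_, ?_⟩
  · refine Primrec.option_bind g1 ?_
    exact f1.comp (Primrec.fst.comp Primrec.fst) Primrec.snd
  · intro p q n v hs h
    rw [Option.bind_eq_some_iff] at h ⊢
    obtain ⟨a, ha, h⟩ := h
    exact ⟨a, g2 _ _ _ _ hs ha, f2 _ _ _ _ hs h⟩
  · intro n v
    have : v ∈ (g n >>= f) ↔ ∃ a ∈ g n, v ∈ f a := by
      simp
    rw [this]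
    constructor
    · rintro ⟨a, ha, hb⟩
      obtain ⟨k, hk⟩ := (g3 n a).1 ha
      obtain ⟨l, hl⟩ := (f3 a v).1 hb
      refine ⟨max k l, ?_⟩
      beta_reduce
      rw [g2 _ _ _ _ (sub_pre A (le_max_left k l)) hk, Option.bind_some,
        f2 _ _ _ _ (sub_pre A (le_max_right k l)) hl]
    · rintro ⟨k, hk⟩
      rw [Option.bind_eq_some_iff] at hk
      obtain ⟨a, ha, h⟩ := hk
      exact ⟨a, (g3 n a).2 ⟨k, ha⟩, (f3 a v).2 ⟨k, h⟩⟩

def hprec (hf hg : PL → ℕ → Option ℕ) (p : PL) (a n : ℕ) : Option ℕ :=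
  Nat.rec (hf p a) (fun y IH => IH.bind fun i => hg p (Nat.pair a (Nat.pair y i))) n

theorem isFun_prec {A : ℕ → Bool} {f g : ℕ → Part ℕ} {hf hg : PL → ℕ → Option ℕ}
    (Hf : IsFun A f hf) (Hg : IsFun A g hg) :
    IsFun A (fun p =>
        let (a, n) := Nat.unpair p
        n.rec (f a) fun y IH => do
          let i ← IH
          g (Nat.pair a (Nat.pair y i)))
      (fun p n => hprec hf hg p n.unpair.1 n.unpair.2) := by
  obtain ⟨f1, f2, f3⟩ := Hf
  obtain ⟨g1, g2, g3⟩ := Hg
  have mono : ∀ p q a n v, Sub p q → hprec hf hg p a n = some v → hprec hf hg q a n = some v := by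
    intro p q a n
    induction n with
    | zero => intro v hs h; exact f2 _ _ _ _ hs h
    | succ n ih =>
      intro v hs h
      change ((hprec hf hg p a n).bind fun i => hg p (Nat.pair a (Nat.pair n i))) = some v at h
      change ((hprec hf hg q a n).bind fun i => hg q (Nat.pair a (Nat.pair n i))) = some v
      rw [Option.bind_eq_some_iff] at h ⊢
      obtain ⟨i, hi, h⟩ := h
      exact ⟨i, ih i hs hi, g2 _ _ _ _ hs h⟩
  refine ⟨?_, fun p q n v hs h => mono _ _ _ _ _ hs h, ?_⟩
  · have : Primrec fun x : PL × ℕ => (x.2.unpair.2).rec (motive := fun _ => Option ℕ)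
        (hf x.1 x.2.unpair.1)
        (fun y IH => (fun (x : PL × ℕ) (z : ℕ × Option ℕ) => z.2.bind fun i =>
          hg x.1 (Nat.pair x.2.unpair.1 (Nat.pair z.1 i))) x (y, IH)) := by
      refine Primrec.nat_rec' (h := fun (x : PL × ℕ) (z : ℕ × Option ℕ) => z.2.bind fun i =>
          hg x.1 (Nat.pair x.2.unpair.1 (Nat.pair z.1 i)))
        (Primrec.snd.comp (Primrec.unpair.comp Primrec.snd))
        (f1.comp Primrec.fst (Primrec.fst.comp (Primrec.unpair.comp Primrec.snd))) ?_
      refine Primrec.option_bind (Primrec.snd.comp Primrec.snd) ?_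
      refine g1.comp (Primrec.fst.comp (Primrec.fst.comp Primrec.fst)) ?_
      refine Primrec₂.natPair.comp (Primrec.fst.comp (Primrec.unpair.comp
        (Primrec.snd.comp (Primrec.fst.comp Primrec.fst)))) ?_
      exact Primrec₂.natPair.comp (Primrec.fst.comp (Primrec.snd.comp Primrec.fst)) Primrec.snd
    exact this
  · intro n v
    change v ∈ (Nat.rec (f n.unpair.1) (fun y IH => IH >>= fun i =>
          g (Nat.pair n.unpair.1 (Nat.pair y i))) n.unpair.2 : Part ℕ) ↔
          ∃ k, hprec hf hg (pre A k) n.unpair.1 n.unpair.2 = some v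
    generalize n.unpair.1 = a
    generalize n.unpair.2 = m
    induction m generalizing v with
    | zero => exact f3 a v
    | succ m ih =>
      change v ∈ ((Nat.rec (f a) (fun y IH => IH >>= fun i =>
          g (Nat.pair a (Nat.pair y i))) m : Part ℕ) >>= fun i => g (Nat.pair a (Nat.pair m i))) ↔
          ∃ k, ((hprec hf hg (pre A k) a m).bind fun i =>
            hg (pre A k) (Nat.pair a (Nat.pair m i))) = some v
      simp only [Part.bind_eq_bind, Part.mem_bind_iff]
      constructor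
      · rintro ⟨i, hi, h⟩
        obtain ⟨k, hk⟩ := (ih i).1 hi
        obtain ⟨l, hl⟩ := (g3 _ v).1 h
        refine ⟨max k l, ?_⟩
        rw [mono _ _ _ _ _ (sub_pre A (le_max_left k l)) hk, Option.bind_some,
          g2 _ _ _ _ (sub_pre A (le_max_right k l)) hl]
      · rintro ⟨k, hk⟩
        rw [Option.bind_eq_some_iff] at hk
        obtain ⟨i, hi, h⟩ := hk
        exact ⟨i, (ih i).2 ⟨k, hi⟩, (g3 _ v).2 ⟨k, h⟩⟩

def scan (hf : PL → ℕ → Option ℕ) (p : PL) (a n : ℕ) : Option (Option ℕ) :=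
  Nat.rec (some none) (fun m IH => IH.bind fun r => Option.casesOn r
    ((hf p (Nat.pair a m)).map fun v => Nat.casesOn v (some m) fun _ => none)
    (fun s => some (some s))) n

theorem scan_zero (hf : PL → ℕ → Option ℕ) (p : PL) (a : ℕ) :
    scan hf p a 0 = some none := rfl

theorem scan_succ (hf : PL → ℕ → Option ℕ) (p : PL) (a n : ℕ) :
    scan hf p a (n + 1) = (scan hf p a n).bind fun r => Option.casesOn r
    ((hf p (Nat.pair a n)).map fun v => Nat.casesOn v (some n) fun _ => none)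
    (fun s => some (some s)) := rfl

theorem scan_none_iff (hf : PL → ℕ → Option ℕ) (p : PL) (a n : ℕ) :
    scan hf p a n = some none ↔ ∀ m < n, ∃ v, hf p (Nat.pair a m) = some (v + 1) := by
  induction n with
  | zero => simp [scan_zero]
  | succ n ih =>
    rw [scan_succ, Option.bind_eq_some_iff]
    constructor
    · rintro ⟨r, hr, h⟩
      cases r with
      | none =>
        simp only [Option.map_eq_some_iff] at h
        obtain ⟨v, hv, h⟩ := h
        cases v with
        | zero => simp at h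
        | succ v =>
          intro m hm
          rcases Nat.lt_succ_iff_lt_or_eq.1 hm with h1 | h1
          · exact ih.1 hr m h1
          · subst h1; exact ⟨v, hv⟩
      | some s => simp at h
    · intro h
      refine ⟨none, ih.2 fun m hm => h m (Nat.lt_succ_of_lt hm), ?_⟩
      obtain ⟨v, hv⟩ := h n (Nat.lt_succ_self n)
      simp [hv]

theorem scan_some_iff (hf : PL → ℕ → Option ℕ) (p : PL) (a n s : ℕ) :
    scan hf p a n = some (some s) ↔ s < n ∧ hf p (Nat.pair a s) = some 0 ∧
      ∀ m < s, ∃ v, hf p (Nat.pair a m) = some (v + 1) := by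
  induction n with
  | zero => simp [scan_zero]
  | succ n ih =>
    rw [scan_succ, Option.bind_eq_some_iff]
    constructor
    · rintro ⟨r, hr, h⟩
      cases r with
      | none =>
        simp only [Option.map_eq_some_iff] at h
        obtain ⟨v, hv, h⟩ := h
        cases v with
        | zero =>
          have h : some n = some s := h
          simp only [Option.some.injEq] at h
          subst h
          exact ⟨Nat.lt_succ_self _, hv, (scan_none_iff hf p a n).1 hr⟩
        | succ v => simp at h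
      | some s' =>
        simp only [Option.some.injEq] at h
        subst h
        obtain ⟨h1, h2⟩ := ih.1 hr
        exact ⟨Nat.lt_succ_of_lt h1, h2⟩
    · rintro ⟨h1, h2, h3⟩
      rcases Nat.lt_succ_iff_lt_or_eq.1 h1 with h | h
      · exact ⟨some s, ih.2 ⟨h, h2, h3⟩, rfl⟩
      · subst h
        refine ⟨none, (scan_none_iff hf p a s).2 h3, ?_⟩
        simp [h2]

theorem isFun_rfind {A : ℕ → Bool} {f : ℕ → Part ℕ} {hf : PL → ℕ → Option ℕ}
    (Hf : IsFun A f hf) :
    IsFun A (fun a => Nat.rfind fun n => (fun m => m = 0) <$> f (Nat.pair a n))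
      (fun p a => (scan hf p a p.length).bind id) := by
  obtain ⟨f1, f2, f3⟩ := Hf
  have key : ∀ p a v, ((scan hf p a p.length).bind id) = some v ↔
      v < p.length ∧ hf p (Nat.pair a v) = some 0 ∧
      ∀ m < v, ∃ w, hf p (Nat.pair a m) = some (w + 1) := by
    intro p a v
    rw [← scan_some_iff, Option.bind_eq_some_iff]
    constructor
    · rintro ⟨r, hr, h⟩
      rw [hr]
      simpa using h
    · intro h
      exact ⟨some v, h, rfl⟩
  refine ⟨?_, ?_, ?_⟩
  · refine Primrec.option_bind ?_ Primrec.snd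
    have : Primrec fun x : PL × ℕ => (x.1.length).rec (motive := fun _ => Option (Option ℕ))
        (some none)
        (fun m IH => (fun (x : PL × ℕ) (z : ℕ × Option (Option ℕ)) => z.2.bind fun r =>
          (Option.casesOn r
    ((hf x.1 (Nat.pair x.2 z.1)).map fun v => (Nat.casesOn v (some z.1) fun _ => none : Option ℕ))
    (fun s => some (some s)) : Option (Option ℕ))) x (m, IH)) := by
      refine Primrec.nat_rec' (h := fun (x : PL × ℕ) (z : ℕ × Option (Option ℕ)) =>
        z.2.bind fun r => (Option.casesOn r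
    ((hf x.1 (Nat.pair x.2 z.1)).map fun v => (Nat.casesOn v (some z.1) fun _ => none : Option ℕ))
    (fun s => some (some s)) : Option (Option ℕ)))
        (Primrec.list_length.comp Primrec.fst)
        (Primrec.const _) ?_
      refine Primrec.option_bind (Primrec.snd.comp Primrec.snd) ?_
      refine Primrec.option_casesOn Primrec.snd ?_ ?_
      · refine Primrec.option_map ?_ ?_
        · refine f1.comp (Primrec.fst.comp (Primrec.fst.comp Primrec.fst)) ?_
          exact Primrec₂.natPair.comp (Primrec.snd.comp (Primrec.fst.comp Primrec.fst))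
            (Primrec.fst.comp (Primrec.snd.comp Primrec.fst))
        · refine Primrec.nat_casesOn Primrec.snd ?_ ?_
          · exact Primrec.option_some.comp (Primrec.fst.comp (Primrec.snd.comp
              (Primrec.fst.comp Primrec.fst)))
          · exact Primrec.const _
      · exact Primrec.option_some.comp (Primrec.option_some.comp Primrec.snd)
    exact this
  · intro p q a v hs h
    rw [key] at h ⊢
    obtain ⟨h1, h2, h3⟩ := h
    refine ⟨h1.trans_le hs.1, f2 _ _ _ _ hs h2, fun m hm => ?_⟩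
    obtain ⟨w, hw⟩ := h3 m hm
    exact ⟨w, f2 _ _ _ _ hs hw⟩
  · intro a v
    refine Iff.trans Nat.mem_rfind ?_
    refine Iff.trans ?_ (exists_congr fun k => (key (pre A k) a v).symm)
    simp only [length_pre]
    have e1 : (true ∈ ((fun m => decide (m = 0)) <$> f (Nat.pair a v))) ↔ 0 ∈ f (Nat.pair a v) := by
      simp only [Part.map_eq_map, Part.mem_map_iff]
      constructor
      · rintro ⟨m, hm, h⟩
        have : m = 0 := by simpa using h
        rwa [this] at hm
      · intro h
        exact ⟨0, h, by simp⟩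
    have e2 : ∀ m, (false ∈ ((fun m => decide (m = 0)) <$> f (Nat.pair a m))) ↔
        ∃ w, w + 1 ∈ f (Nat.pair a m) := by
      intro m
      simp only [Part.map_eq_map, Part.mem_map_iff]
      constructor
      · rintro ⟨w, hw, h⟩
        have : w ≠ 0 := by simpa using h
        obtain ⟨w', rfl⟩ := Nat.exists_eq_succ_of_ne_zero this
        exact ⟨w', hw⟩
      · rintro ⟨w, hw⟩
        exact ⟨w + 1, hw, by simp⟩
    constructor
    · rintro ⟨h1, h2⟩
      obtain ⟨k0, hk0⟩ := (f3 _ _).1 (e1.1 h1)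
      have h3 : ∀ m < v, ∃ k w, hf (pre A k) (Nat.pair a m) = some (w + 1) := by
        intro m hm
        obtain ⟨w, hw⟩ := (e2 m).1 (h2 hm)
        obtain ⟨k, hk⟩ := (f3 _ _).1 hw
        exact ⟨k, w, hk⟩
      have h4 : ∀ u ≤ v, ∃ k, ∀ m < u, ∃ w, hf (pre A k) (Nat.pair a m) = some (w + 1) := by
        intro u
        induction u with
        | zero => intro _; exact ⟨0, fun m hm => absurd hm (Nat.not_lt_zero m)⟩
        | succ u ih =>
          intro hu
          obtain ⟨k, hk⟩ := ih (Nat.le_of_succ_le hu)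
          obtain ⟨l, w, hl⟩ := h3 u hu
          refine ⟨max k l, fun m hm => ?_⟩
          rcases Nat.lt_succ_iff_lt_or_eq.1 hm with h | h
          · obtain ⟨w', hw'⟩ := hk m h
            exact ⟨w', f2 _ _ _ _ (sub_pre A (le_max_left k l)) hw'⟩
          · subst h
            exact ⟨w, f2 _ _ _ _ (sub_pre A (le_max_right k l)) hl⟩
      obtain ⟨k1, hk1⟩ := h4 v le_rfl
      refine ⟨max (v + 1) (max k0 k1), ?_, ?_, ?_⟩
      · exact lt_of_lt_of_le (Nat.lt_succ_self v) (le_max_left _ _)
      · exact f2 _ _ _ _ (sub_pre A ((le_max_left k0 k1).trans (le_max_right _ _))) hk0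
      · intro m hm
        obtain ⟨w, hw⟩ := hk1 m hm
        exact ⟨w, f2 _ _ _ _ (sub_pre A ((le_max_right k0 k1).trans (le_max_right _ _))) hw⟩
    · rintro ⟨k, _, h2, h3⟩
      refine ⟨e1.2 ((f3 _ _).2 ⟨k, h2⟩), fun {m} hm => (e2 m).2 ?_⟩
      obtain ⟨w, hw⟩ := h3 m hm
      exact ⟨w, (f3 _ _).2 ⟨k, hw⟩⟩

theorem norm {A : ℕ → Bool} {f : ℕ →. ℕ} (hf : Nat.RecursiveIn {chi A} f) :
    ∃ h, IsFun A f h := by
  induction hf with
  | zero => exact ⟨_, isFun_const_like (Primrec.const 0)⟩
  | succ => exact ⟨_, isFun_const_like Primrec.succ⟩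
  | left => exact ⟨_, isFun_const_like (Primrec.fst.comp Primrec.unpair)⟩
  | right => exact ⟨_, isFun_const_like (Primrec.snd.comp Primrec.unpair)⟩
  | oracle g hg =>
    rw [Set.mem_singleton_iff] at hg
    subst hg
    exact ⟨_, isFun_oracle A⟩
  | pair _ _ ih1 ih2 =>
    obtain ⟨h1, H1⟩ := ih1
    obtain ⟨h2, H2⟩ := ih2
    exact ⟨_, isFun_pair H1 H2⟩
  | comp _ _ ih1 ih2 =>
    obtain ⟨h1, H1⟩ := ih1
    obtain ⟨h2, H2⟩ := ih2
    exact ⟨_, isFun_comp H1 H2⟩
  | prec _ _ ih1 ih2 =>
    obtain ⟨h1, H1⟩ := ih1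
    obtain ⟨h2, H2⟩ := ih2
    exact ⟨_, isFun_prec H1 H2⟩
  | rfind _ ih =>
    obtain ⟨h1, H1⟩ := ih
    exact ⟨_, isFun_rfind H1⟩

end Vale.Agent.P327
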