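import Vale.Agent.P327.TC

namespace Vale.Agent.P327

open Encodable

def Fn (h : PL → ℕ → Option Bool) : Prop := Primrec₂ h ∧ Mono h

def Red (h : PL → ℕ → Option Bool) (A B : ℕ → Bool) : Prop :=
  ∀ i, ∃ k, h (pre A k) i = some (B i)

def Agr (p : PL) (A : ℕ → Bool) : Prop := ∀ n b, rd p n = some b → b = A n

theorem agr_pre (A : ℕ → Bool) (k : ℕ) : Agr (pre A k) A := fun _ _ h => (rd_pre_some h).symm

theorem Red.sound {h : PL → ℕ → Option Bool} (hh : Fn h) {A B : ℕ → Bool} (hr : Red h A B)
    {p : PL} (hp : Agr p A) {i : ℕ} {b : Bool} (hb : h p i = some b) : b = B i := by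
  obtain ⟨k, hk⟩ := hr i
  have h1 := hh.2 _ _ _ _ ((sub_pre_of_agree hp).trans (sub_pre A (le_max_left p.length k))) hb
  have h2 := hh.2 _ _ _ _ (sub_pre A (le_max_right p.length k)) hk
  rw [h1] at h2
  exact Option.some.inj h2

theorem tle_of_red {h : PL → ℕ → Option Bool} (hh : Fn h) {A B : ℕ → Bool}
    (hr : Red h A B) : TLE B A := by
  refine tle_of_search (g := fun p _ i => h p i) ?_ ?_ ?_
  · refine Primrec.to_comp ?_
    exact hh.1.comp Primrec.fst (Primrec.snd.comp Primrec.snd)
  · intro k m i b hb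
    exact hr.sound hh (agr_pre A k) hb
  · intro i
    obtain ⟨k, hk⟩ := hr i
    exact ⟨k, 0, by rw [hk]; simp⟩

theorem exists_red {A B : ℕ → Bool} (h : TLE B A) : ∃ g, Fn g ∧ Red g A B := by
  obtain ⟨g, g1, g2, g3⟩ := norm (RecursiveIn.iff_nat.1 h)
  refine ⟨fun p n => (g p n).map fun v => decide (v ≠ 0), ⟨?_, ?_⟩, ?_⟩
  · refine Primrec.option_map g1 ?_
    have h0 : Primrec fun z : ℕ => decide (z = 0) :=
      (PrimrecRel.decide Primrec.eq).comp Primrec.id (Primrec.const 0)
    have h1 : Primrec fun z : ℕ => decide (z ≠ 0) :=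
      (Primrec.not.comp h0).of_eq fun z => by simp
    exact h1.comp Primrec.snd
  · intro p q n v hs h
    rw [Option.map_eq_some_iff] at h ⊢
    obtain ⟨w, hw, e⟩ := h
    exact ⟨w, g2 _ _ _ _ hs hw, e⟩
  · intro i
    obtain ⟨k, hk⟩ := (g3 i (B i).toNat).1 (Part.mem_some _)
    refine ⟨k, ?_⟩
    simp only [hk, Option.map_some]
    cases B i <;> rfl

theorem countable_fn : {h : PL → ℕ → Option Bool | Fn h}.Countable := by
  have hc : ∀ c : Nat.Partrec.Code, ∃ h : PL → ℕ → Option Bool, ∀ h' : PL → ℕ → Option Bool,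
      (c.eval = fun n => Part.some (encode ((decode (α := PL × ℕ) n).map
        fun x => h' x.1 x.2))) → h = h' := by
    intro c
    by_cases hx : ∃ h' : PL → ℕ → Option Bool,
      (c.eval = fun n => Part.some (encode ((decode (α := PL × ℕ) n).map
        fun x => h' x.1 x.2)))
    · obtain ⟨h, hh⟩ := hx
      refine ⟨h, fun h' hh' => ?_⟩
      rw [hh] at hh'
      funext p i
      have := congrFun hh' (encode (p, i))
      simpa using this
    · refine ⟨fun _ _ => none, fun h' hh' => absurd ⟨h', hh'⟩ hx⟩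
  choose G hG using hc
  refine (Set.countable_range G).mono ?_
  intro h hh
  have h1 : Nat.Partrec (fun n => Part.some (encode ((decode (α := PL × ℕ) n).map
        fun x => h x.1 x.2)) : ℕ →. ℕ) := Nat.Partrec.of_primrec hh.1
  obtain ⟨c, hc⟩ := Nat.Partrec.Code.exists_code.1 h1
  exact ⟨c, hG c h hc⟩

theorem fn_none : Fn fun _ _ => none :=
  ⟨Primrec.const none, fun _ _ _ _ _ h => h⟩

theorem exists_enum : ∃ H : ℕ → PL → ℕ → Option Bool, (∀ e, Fn (H e)) ∧
    ∀ h, Fn h → ∃ e, H e = h := by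
  obtain ⟨H, hH⟩ := countable_fn.exists_eq_range ⟨_, fn_none⟩
  refine ⟨H, fun e => ?_, fun h hh => ?_⟩
  · have : H e ∈ {h : PL → ℕ → Option Bool | Fn h} := by rw [hH]; exact ⟨e, rfl⟩
    exact this
  · have : h ∈ Set.range H := by rw [← hH]; exact hh
    exact this

noncomputable def H : ℕ → PL → ℕ → Option Bool := Classical.choose exists_enum

theorem H_fn (e : ℕ) : Fn (H e) := (Classical.choose_spec exists_enum).1 e

theorem H_surj {h : PL → ℕ → Option Bool} (hh : Fn h) : ∃ e, H e = h :=
  (Classical.choose_spec exists_enum).2 h hh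

theorem tle_iff_exists {A B : ℕ → Bool} : TLE B A ↔ ∃ e, Red (H e) A B := by
  constructor
  · intro h
    obtain ⟨g, g1, g2⟩ := exists_red h
    obtain ⟨e, rfl⟩ := H_surj g1
    exact ⟨e, g2⟩
  · rintro ⟨e, he⟩
    exact tle_of_red (H_fn e) he

theorem TLE.comp_idx {A B : ℕ → Bool} (h : TLE B A) {a : ℕ → ℕ} (ha : Primrec a) :
    TLE (fun n => B (a n)) A := by
  rw [tle_iff] at h ⊢
  exact TC.comp h (TC.prim ha)

theorem TLE.map₂ {A B B' : ℕ → Bool} (h : TLE B A) (h' : TLE B' A) (φ : Bool → Bool → Bool) :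
    TLE (fun n => φ (B n) (B' n)) A := by
  rw [tle_iff] at h h' ⊢
  have h1 : Primrec fun z : ℕ => (φ (decide (z.unpair.1 = 1)) (decide (z.unpair.2 = 1))).toNat := by
    have e : Primrec fun z : ℕ => decide (z = 1) :=
      (PrimrecRel.decide Primrec.eq).comp Primrec.id (Primrec.const 1)
    have e2 : Primrec₂ fun x y => (φ x y).toNat := Primrec.dom_finite _
    exact e2.comp (e.comp (Primrec.fst.comp Primrec.unpair))
      (e.comp (Primrec.snd.comp Primrec.unpair))
  refine TC.of_eq (TC.comp (TC.prim h1) (TC.pair h h')) fun n => ?_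
  simp only [Nat.unpair_pair]
  cases B n <;> cases B' n <;> rfl

theorem TLE.primrec {A B : ℕ → Bool} (h : Primrec B) : TLE B A := by
  rw [tle_iff]
  exact TC.prim ((Primrec.dom_finite Bool.toNat).comp h)

def join (A B : ℕ → Bool) : ℕ → Bool := fun n => if n % 2 = 0 then A (n / 2) else B (n / 2)

def lft (A : ℕ → Bool) : ℕ → Bool := fun n => A (2 * n)

def rgt (A : ℕ → Bool) : ℕ → Bool := fun n => A (2 * n + 1)

@[simp] theorem lft_join (A B : ℕ → Bool) : lft (join A B) = A := by
  funext n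
  simp [lft, join]

@[simp] theorem rgt_join (A B : ℕ → Bool) : rgt (join A B) = B := by
  funext n
  have h1 : (2 * n + 1) % 2 = 1 := by omega
  have h2 : (2 * n + 1) / 2 = n := by omega
  simp [rgt, join, h1, h2]

@[simp] theorem join_lft_rgt (A : ℕ → Bool) : join (lft A) (rgt A) = A := by
  funext n
  unfold join lft rgt
  split_ifs with h
  · congr 1; omega
  · congr 1; omega

theorem lft_tle (A : ℕ → Bool) : TLE (lft A) A :=
  (TLE.refl A).comp_idx (Primrec.nat_mul.comp (Primrec.const 2) Primrec.id)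

theorem rgt_tle (A : ℕ → Bool) : TLE (rgt A) A :=
  (TLE.refl A).comp_idx (Primrec.succ.comp (Primrec.nat_mul.comp (Primrec.const 2) Primrec.id))

theorem left_tle_join (A B : ℕ → Bool) : TLE A (join A B) := by
  have := lft_tle (join A B)
  rwa [lft_join] at this

theorem right_tle_join (A B : ℕ → Bool) : TLE B (join A B) := by
  have := rgt_tle (join A B)
  rwa [rgt_join] at this

theorem join_tle {A B C : ℕ → Bool} (h : TLE A C) (h' : TLE B C) : TLE (join A B) C := by
  have e : Primrec fun n : ℕ => decide (n % 2 = 0) :=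
    (PrimrecRel.decide Primrec.eq).comp (Primrec.nat_mod.comp Primrec.id (Primrec.const 2))
      (Primrec.const 0)
  have d : Primrec fun n : ℕ => n / 2 := Primrec.nat_div.comp Primrec.id (Primrec.const 2)
  have h1 := h.comp_idx d
  have h2 := h'.comp_idx d
  have h3 := (TLE.primrec (A := C) e).map₂ h1 (fun x y => x && y)
  have h4 := (TLE.primrec (A := C) e).map₂ h2 (fun x y => !x && y)
  have h5 := h3.map₂ h4 (fun x y => x || y)
  have : join A B = fun n => ((decide (n % 2 = 0) && A (n / 2)) ||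
      (!decide (n % 2 = 0) && B (n / 2))) := by
    funext n
    unfold join
    split_ifs with h <;> simp [h]
  rw [this]
  exact h5

theorem join_mono {A B C D : ℕ → Bool} (h : TLE A C) (h' : TLE B D) :
    TLE (join A B) (join C D) :=
  join_tle (h.trans (left_tle_join C D)) (h'.trans (right_tle_join C D))

end Vale.Agent.P327
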