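import Vale.Agent.P327.Decode

namespace Vale.Agent.P327

open Encodable

def joinH : X2 ≃ₜ (ℕ → Bool) where
  toFun z := join z.1 z.2
  invFun q := (lft q, rgt q)
  left_inv z := by simp
  right_inv q := by simp
  continuous_toFun := continuous_join' continuous_fst continuous_snd
  continuous_invFun := continuous_lft.prodMk continuous_rgt

theorem ev_join {P : (ℕ → Bool) → Prop} (h : ∀ᶠ q in residual (ℕ → Bool), P q) :
    ∀ᶠ x in residual (ℕ → Bool), ∀ᶠ y in residual (ℕ → Bool), P (join x y) :=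
  ku (ev_open h joinH.continuous joinH.isOpenMap)

theorem exists_cyl2 {U : Set X2} (hU : IsOpen U) {x y : ℕ → Bool} (hq : (x, y) ∈ U) :
    ∃ r : ℕ, ∀ x' y' : ℕ → Bool, (∀ i < r, x' i = x i) → (∀ i < r, y' i = y i) →
      (x', y') ∈ U := by
  obtain ⟨u, v, hu, hv, hxu, hyv, huv⟩ := isOpen_prod_iff.1 hU x y hq
  obtain ⟨r₁, h₁⟩ := exists_cyl hu hxu
  obtain ⟨r₂, h₂⟩ := exists_cyl hv hyv
  refine ⟨max r₁ r₂, fun x' y' hx hy => huv ⟨?_, ?_⟩⟩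
  · exact h₁ x' fun i hi => hx i (hi.trans_le (le_max_left _ _))
  · exact h₂ y' fun i hi => hy i (hi.trans_le (le_max_right _ _))

theorem ev_differ (τ : ℕ → Bool) : ∀ᶠ τ' in residual (ℕ → Bool), ∀ k : ℕ,
    ∃ i, k < i ∧ τ (Nat.pair i (2 ^ k)) ≠ τ' (Nat.pair i (2 ^ k)) := by
  rw [eventually_countable_forall]
  intro k
  refine residual_of_dense_open ?_ ?_
  · have : {τ' : ℕ → Bool | ∃ i, k < i ∧ τ (Nat.pair i (2 ^ k)) ≠ τ' (Nat.pair i (2 ^ k))} =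
        ⋃ i : {i // k < i}, (fun τ' : ℕ → Bool => τ' (Nat.pair i (2 ^ k))) ⁻¹'
          {τ (Nat.pair i (2 ^ k))}ᶜ := by
      ext τ'
      simp only [Set.mem_ofPred_eq, Set.mem_iUnion, Set.mem_preimage, Set.mem_compl_iff,
        Set.mem_singleton_iff, Subtype.exists, exists_prop]
      exact exists_congr fun i => and_congr_right fun _ => ne_comm
    change IsOpen {τ' : ℕ → Bool | ∃ i, k < i ∧ τ (Nat.pair i (2 ^ k)) ≠
      τ' (Nat.pair i (2 ^ k))}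
    rw [this]
    exact isOpen_iUnion fun i => (isOpen_discrete _).preimage (continuous_apply _)
  · rw [dense_iff_inter_open]
    rintro U hU ⟨q, hq⟩
    obtain ⟨r, hr⟩ := exists_cyl hU hq
    set i := max r (k + 1) with hi
    set p := Nat.pair i (2 ^ k) with hp
    have h1 : i ≤ p := Nat.left_le_pair i (2 ^ k)
    have h2 : r ≤ i := le_max_left _ _
    have h3 : k + 1 ≤ i := le_max_right _ _
    refine ⟨Function.update q p (!τ p), hr _ fun j hj => ?_, i, by omega, ?_⟩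
    · exact Function.update_of_ne (by omega) _ _
    · rw [← hp, Function.update_self]
      cases τ p <;> simp

def Rg (φ : ℕ → (ℕ → Bool) → (ℕ → Bool)) (f : X2 → (ℕ → Bool)) (i : ℕ × ℕ × ℕ × ℕ) : Set X2 :=
  {z | Red (H i.2.2.2) (join (φ i.1 z.1) (φ i.2.1 z.2)) (φ i.2.2.1 (f z))}

theorem measurable_Rg {φ : ℕ → (ℕ → Bool) → (ℕ → Bool)} (hφ : ∀ a, Measurable (φ a))
    {f : X2 → (ℕ → Bool)} (hf : Measurable f) (i : ℕ × ℕ × ℕ × ℕ) :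
    MeasurableSet (Rg φ f i) :=
  measurableSet_red _ (measurable_join ((hφ _).comp measurable_fst) ((hφ _).comp measurable_snd))
    ((hφ _).comp hf)

def R4 (φ ψ : ℕ → (ℕ → Bool) → (ℕ → Bool)) (i : ℕ × ℕ) : Set (ℕ → Bool) :=
  {v | ψ i.2 (φ i.1 v) = v}

theorem measurable_R4 {φ ψ : ℕ → (ℕ → Bool) → (ℕ → Bool)} (hφ : ∀ a, Measurable (φ a))
    (hψ : ∀ a, Measurable (ψ a)) (i : ℕ × ℕ) : MeasurableSet (R4 φ ψ i) :=
  measurableSet_eq_fun ((hψ _).comp (hφ _)) measurable_id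

structure Good (φ ψ : ℕ → (ℕ → Bool) → (ℕ → Bool)) where
  U₁ : ℕ × ℕ × ℕ × ℕ → Set X2
  U₂ : ℕ × ℕ × ℕ × ℕ → Set X2
  U₃ : ℕ × ℕ × ℕ × ℕ → Set X2
  U₄ : ℕ × ℕ → Set (ℕ → Bool)
  o₁ : ∀ i, IsOpen (U₁ i)
  o₂ : ∀ i, IsOpen (U₂ i)
  o₃ : ∀ i, IsOpen (U₃ i)
  o₄ : ∀ i, IsOpen (U₄ i)
  g₁ : ∀ᶠ z in residual X2, ∀ i, (z ∈ Rg φ (fun z => xr (Lc z.1) z.2) i ↔ z ∈ U₁ i)
  g₂ : ∀ᶠ z in residual X2, ∀ i, (z ∈ Rg φ (fun z => xr z.1 z.2) i ↔ z ∈ U₂ i)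
  g₃ : ∀ᶠ z in residual X2, ∀ i, (z ∈ Rg φ (fun z => xr (Mh z.1) z.2) i ↔ z ∈ U₃ i)
  g₄ : ∀ᶠ v in residual (ℕ → Bool), ∀ i, (v ∈ R4 φ ψ i ↔ v ∈ U₄ i)

theorem exists_good {φ ψ : ℕ → (ℕ → Bool) → (ℕ → Bool)} (hφ : ∀ a, Measurable (φ a))
    (hψ : ∀ a, Measurable (ψ a)) : Nonempty (Good φ ψ) := by
  have m1 : Measurable fun z : X2 => xr (Lc z.1) z.2 := (open_shear continuous_lc).1.measurable
  have m2 : Measurable fun z : X2 => xr z.1 z.2 := (open_shear continuous_id).1.measurable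
  have m3 : Measurable fun z : X2 => xr (Mh z.1) z.2 := (open_shear continuous_mh).1.measurable
  obtain ⟨U₁, o₁, g₁⟩ := local_family (measurable_Rg hφ m1)
  obtain ⟨U₂, o₂, g₂⟩ := local_family (measurable_Rg hφ m2)
  obtain ⟨U₃, o₃, g₃⟩ := local_family (measurable_Rg hφ m3)
  obtain ⟨U₄, o₄, g₄⟩ := local_family (measurable_R4 hφ hψ)
  exact ⟨⟨U₁, U₂, U₃, U₄, o₁, o₂, o₃, o₄, g₁, g₂, g₃, g₄⟩⟩

def Q₁ {φ ψ : ℕ → (ℕ → Bool) → (ℕ → Bool)} (g : Good φ ψ) (z : X2) : Prop :=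
  ∀ i, (z ∈ Rg φ (fun z => xr (Lc z.1) z.2) i ↔ z ∈ g.U₁ i)

def Q₂ {φ ψ : ℕ → (ℕ → Bool) → (ℕ → Bool)} (g : Good φ ψ) (z : X2) : Prop :=
  ∀ i, (z ∈ Rg φ (fun z => xr z.1 z.2) i ↔ z ∈ g.U₂ i)

def Q₃ {φ ψ : ℕ → (ℕ → Bool) → (ℕ → Bool)} (g : Good φ ψ) (z : X2) : Prop :=
  ∀ i, (z ∈ Rg φ (fun z => xr (Mh z.1) z.2) i ↔ z ∈ g.U₃ i)

def Q₄ {φ ψ : ℕ → (ℕ → Bool) → (ℕ → Bool)} (g : Good φ ψ) (v : ℕ → Bool) : Prop :=
  ∀ i, (v ∈ R4 φ ψ i ↔ v ∈ g.U₄ i)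

def Ch {φ ψ : ℕ → (ℕ → Bool) → (ℕ → Bool)} (g : Good φ ψ) (κ l m : ℕ → Bool) : Prop :=
  ∀ n, Q₁ g (xs κ l m n, l) ∧ Q₃ g (xs κ l m n, l) ∧ Q₂ g (xr (Lc (xs κ l m n)) l, m) ∧
    Q₄ g (xr (Mh (xs κ l m n)) l)

theorem ev_Ch {φ ψ : ℕ → (ℕ → Bool) → (ℕ → Bool)} (g : Good φ ψ) :
    ∀ᶠ z in residual X2, ∀ᶠ m in residual (ℕ → Bool), Ch g z.1 z.2 m := by
  have h1 : ∀ᶠ z in residual X3, Ch g z.1 z.2.1 z.2.2 := by
    unfold Ch
    rw [eventually_countable_forall]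
    intro n
    obtain ⟨h, hh⟩ := exists_stH n
    have hc := h.continuous
    have ho := h.isOpenMap
    have a₁ := ev_open g.g₁ (open_pr12.1.comp hc) (open_pr12.2.comp ho)
    have a₃ := ev_open g.g₃ (open_pr12.1.comp hc) (open_pr12.2.comp ho)
    have s₂ := open_pr3 (open_shear continuous_lc).1 (open_shear continuous_lc).2
    have a₂ := ev_open g.g₂ (s₂.1.comp hc) (s₂.2.comp ho)
    have a₄ := ev_open g.g₄ (((open_shear continuous_mh).1.comp open_pr12.1).comp hc)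
      (((open_shear continuous_mh).2.comp open_pr12.2).comp ho)
    filter_upwards [a₁, a₂, a₃, a₄] with z b₁ b₂ b₃ b₄
    simp only [Function.comp, hh] at b₁ b₂ b₃ b₄
    exact ⟨b₁, b₃, b₂, b₄⟩
  have h2 := ev_open h1 (Homeomorph.prodAssoc (ℕ → Bool) (ℕ → Bool) (ℕ → Bool)).continuous
    (Homeomorph.prodAssoc (ℕ → Bool) (ℕ → Bool) (ℕ → Bool)).isOpenMap
  exact ku h2

structure Bs {φ ψ : ℕ → (ℕ → Bool) → (ℕ → Bool)} (g : Good φ ψ)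
    (F : (ℕ → Bool) → (ℕ → Bool)) (κ l : ℕ → Bool) : Prop where
  q₁ : Q₁ g (κ, l)
  q₃ : Q₃ g (κ, l)
  q₂ : Q₂ g (xr (Lc κ) l, base κ l)
  q₄ : Q₄ g (xr (Mh κ) l)
  cκ : ∃ a, F κ = φ a κ
  cl : ∃ a, F l = φ a l
  cw : ∃ a, F (xr (Lc κ) l) = φ a (xr (Lc κ) l)
  cm : ∃ a, F (base κ l) = φ a (base κ l)
  cv : ∃ a, F (xr (Mh κ) l) = φ a (xr (Mh κ) l)
  cv' : ∃ a, ψ a (F (xr (Mh κ) l)) = xr (Mh κ) l
  hv : ∀ a, F (base κ l) = φ a (base κ l) → ∀ U : Set (ℕ → Bool), IsOpen U → base κ l ∈ U →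
    ¬ IsMeagre ({x | F x = φ a x} ∩ U)

theorem ev_Bs {φ ψ : ℕ → (ℕ → Bool) → (ℕ → Bool)} (g : Good φ ψ)
    {F : (ℕ → Bool) → (ℕ → Bool)}
    (hX : ∀ᶠ x in residual (ℕ → Bool), ∃ a, F x = φ a x)
    (hX' : ∀ᶠ x in residual (ℕ → Bool), ∃ a, ψ a (F x) = x) :
    ∀ᶠ z in residual X2, Bs g F z.1 z.2 := by
  have ob : Continuous (fun z : X2 => base z.1 z.2) ∧ IsOpenMap (fun z : X2 => base z.1 z.2) := by
    have e : (fun z : X2 => base z.1 z.2) =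
        fun z : X2 => xr ((fun x => xr x (Lc x)) z.1) z.2 := by
      funext z
      exact (xr_assoc _ _ _).symm
    rw [e]
    exact open_shear (continuous_xr' continuous_id continuous_lc)
  have ol := open_shear continuous_lc
  have om := open_shear continuous_mh
  let h : X2 ≃ₜ X2 := ((shear Lc continuous_lc).trans (Homeomorph.prodComm _ _)).trans
    (shear id continuous_id)
  have hh : ∀ z : X2, h z = (xr (Lc z.1) z.2, base z.1 z.2) := by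
    intro z
    refine Prod.ext rfl ?_
    exact xr_comm _ _
  have hv : ∀ᶠ x in residual (ℕ → Bool), ∀ a, F x = φ a x → ∀ U : Set (ℕ → Bool), IsOpen U →
      x ∈ U → ¬ IsMeagre ({x | F x = φ a x} ∩ U) := by
    rw [eventually_countable_forall]
    intro a
    exact heavy {x | F x = φ a x}
  have a₂ := ev_open g.g₂ h.continuous h.isOpenMap
  filter_upwards [g.g₁, g.g₃, a₂, ev_open g.g₄ om.1 om.2,
    ev_open hX continuous_fst isOpenMap_fst, ev_open hX continuous_snd isOpenMap_snd,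
    ev_open hX ol.1 ol.2, ev_open hX ob.1 ob.2, ev_open hX om.1 om.2,
    ev_open hX' om.1 om.2, ev_open hv ob.1 ob.2] with z b₁ b₂ b₃ b₄ b₅ b₆ b₇ b₈ b₉ b₁₀ b₁₁
  rw [hh] at b₃
  exact ⟨b₁, b₂, b₃, b₄, b₅, b₆, b₇, b₈, b₉, b₁₀, b₁₁⟩

end Vale.Agent.P327
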