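import Mathlib

namespace Vale.Agent.P327

open Classical in
noncomputable def charFun (A : Set ℕ) : ℕ →. ℕ :=
  fun n => Part.some (if n ∈ A then 1 else 0)

def SetLE (A B : Set ℕ) : Prop := TuringReducible (charFun A) (charFun B)

def Degrees : Set (Set (Set ℕ)) :=
  {a | ∃ A : Set ℕ, a = {B : Set ℕ | SetLE A B ∧ SetLE B A}}

def DegLE (a b : Set (Set ℕ)) : Prop := ∃ A ∈ a, ∃ B ∈ b, SetLE A B

end Vale.Agent.P327
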