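import Vale.Agent.P327.Meas

namespace Vale.Agent.P327

open Encodable

def sh (n : ℕ) : ℕ := Nat.pair (n.unpair.1 + 1) n.unpair.2

def Lam (x : ℕ → Bool) : ℕ → Bool := fun n => x (sh n)

def Mc (x : ℕ → Bool) : ℕ → Bool := fun n => decide (n.unpair.1 = 0) && x n

def xr (x y : ℕ → Bool) : ℕ → Bool := fun n => xor (x n) (y n)

def f1 (x y : ℕ → Bool) : ℕ → Bool := xr (Lam x) y

def f3 (x y : ℕ → Bool) : ℕ → Bool := xr (Mc x) y

def zr : ℕ → Bool := fun _ => false

def Del (C : ℕ → Bool) (r n : ℕ) : ℕ → Bool := fun m =>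
  C (m.unpair.1 + n) && (decide (r ≤ m.unpair.2) && C (m.unpair.2 - r))

def vh (C : ℕ → Bool) (r : ℕ) : ℕ → Bool := fun m =>
  decide (m.unpair.1 = 0) && (decide (r ≤ m.unpair.2) && C (m.unpair.2 - r))

theorem del_lt (C : ℕ → Bool) {r n m : ℕ} (h : m < r) : Del C r n m = false := by
  have h1 : ¬ r ≤ m.unpair.2 := by
    have := Nat.unpair_right_le m
    omega
  simp [Del, h1]

theorem lam_xr (x y : ℕ → Bool) : Lam (xr x y) = xr (Lam x) (Lam y) := rfl

theorem lam_del (C : ℕ → Bool) (r n : ℕ) : Lam (Del C r n) = Del C r (n + 1) := by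
  funext m
  simp only [Lam, Del, sh, Nat.unpair_pair]
  congr 2
  omega

theorem mc_xr (x y : ℕ → Bool) : Mc (xr x y) = xr (Mc x) (Mc y) := by
  funext m
  simp only [Mc, xr]
  cases decide (m.unpair.1 = 0) <;> simp

theorem mc_del (C : ℕ → Bool) (r n : ℕ) :
    Mc (Del C r n) = if C n = true then vh C r else zr := by
  funext m
  by_cases h : m.unpair.1 = 0
  · cases hC : C n <;> simp [Mc, Del, vh, h, hC, zr]
  · cases hC : C n <;> simp [Mc, vh, h, zr]

theorem xr_comm (x y : ℕ → Bool) : xr x y = xr y x := funext fun _ => Bool.xor_comm _ _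

theorem xr_assoc (x y z : ℕ → Bool) : xr (xr x y) z = xr x (xr y z) :=
  funext fun _ => Bool.xor_assoc _ _ _

theorem xr_self (x : ℕ → Bool) : xr x x = zr := funext fun _ => Bool.xor_self _

theorem xr_zr (x : ℕ → Bool) : xr x zr = x := funext fun _ => Bool.xor_false _

theorem xr_cancel (x y : ℕ → Bool) : xr (xr x y) y = x := by rw [xr_assoc, xr_self, xr_zr]

theorem xr_cancel' (x y : ℕ → Bool) : xr x (xr x y) = y := by
  rw [← xr_assoc, xr_self, xr_comm, xr_zr]

theorem f1_del (C κ l : ℕ → Bool) (r n : ℕ) :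
    f1 (xr κ (Del C r n)) l = xr (xr (Lam κ) l) (Del C r (n + 1)) := by
  unfold f1
  rw [lam_xr, lam_del, xr_assoc, xr_comm (Del C r (n + 1)) l, ← xr_assoc]

theorem f2_del (C κ l : ℕ → Bool) (r n : ℕ) :
    xr (xr (xr (Lam κ) l) (Del C r (n + 1))) (xr κ (xr (Lam κ) l)) =
      xr κ (Del C r (n + 1)) := by
  generalize xr (Lam κ) l = a
  generalize Del C r (n + 1) = d
  funext m
  simp only [xr]
  cases a m <;> cases d m <;> cases κ m <;> rfl

theorem f3_del (C κ l : ℕ → Bool) (r n : ℕ) :
    f3 (xr κ (Del C r n)) l = if C n = true then xr (xr (Mc κ) l) (vh C r) else xr (Mc κ) l := by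
  unfold f3
  rw [mc_xr, mc_del]
  split_ifs
  · rw [xr_assoc, xr_comm (vh C r) l, ← xr_assoc]
  · rw [xr_zr]

theorem xr_join (a b c d : ℕ → Bool) : xr (join a b) (join c d) = join (xr a c) (xr b d) := by
  funext n
  simp only [xr, join]
  split_ifs <;> rfl

theorem lft_xr (a b : ℕ → Bool) : lft (xr a b) = xr (lft a) (lft b) := rfl

theorem rgt_xr (a b : ℕ → Bool) : rgt (xr a b) = xr (rgt a) (rgt b) := rfl

theorem join_zr_lt {d : ℕ → Bool} {r : ℕ} (hd : ∀ m < r, d m = false) {m : ℕ} (hm : m < r) :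
    join d zr m = false := by
  unfold join
  split_ifs
  · exact hd _ (by omega)
  · rfl

def Th (q : ℕ → Bool) : ℕ → Bool :=
  join (xr (Lam (lft q)) (rgt q)) (xr (lft q) (xr (Lam (lft q)) (rgt q)))

def Thi (q : ℕ → Bool) : ℕ → Bool :=
  join (xr (lft q) (rgt q)) (xr (lft q) (Lam (xr (lft q) (rgt q))))

theorem continuous_idx {f : (ℕ → Bool) → ℕ → Bool} (hf : Continuous f) (a : ℕ → ℕ) :
    Continuous fun q n => f q (a n) :=
  continuous_pi fun n => (continuous_apply (a n)).comp hf

theorem continuous_xr {f g : (ℕ → Bool) → ℕ → Bool} (hf : Continuous f) (hg : Continuous g) :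
    Continuous fun q => xr (f q) (g q) := by
  refine continuous_pi fun n => ?_
  have h1 : Continuous fun q => (f q n, g q n) :=
    ((continuous_apply n).comp hf).prodMk ((continuous_apply n).comp hg)
  exact (continuous_of_discreteTopology (f := fun x : Bool × Bool => xor x.1 x.2)).comp h1

theorem continuous_join {f g : (ℕ → Bool) → ℕ → Bool} (hf : Continuous f) (hg : Continuous g) :
    Continuous fun q => join (f q) (g q) := by
  refine continuous_pi fun n => ?_
  by_cases hn : n % 2 = 0
  · simp only [join, hn, if_true]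
    exact (continuous_apply _).comp hf
  · simp only [join, hn, if_false]
    exact (continuous_apply _).comp hg

theorem continuous_lft : Continuous lft := continuous_idx continuous_id _

theorem continuous_rgt : Continuous rgt := continuous_idx continuous_id _

theorem continuous_th : Continuous Th := by
  have h1 : Continuous fun q : ℕ → Bool => xr (Lam (lft q)) (rgt q) :=
    continuous_xr (continuous_idx continuous_lft sh) continuous_rgt
  exact continuous_join h1 (continuous_xr continuous_lft h1)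

theorem continuous_thi : Continuous Thi := by
  have h1 : Continuous fun q : ℕ → Bool => xr (lft q) (rgt q) :=
    continuous_xr continuous_lft continuous_rgt
  exact continuous_join h1 (continuous_xr continuous_lft (continuous_idx h1 sh))

theorem thi_th (q : ℕ → Bool) : Thi (Th q) = q := by
  have h1 : xr (xr (Lam (lft q)) (rgt q)) (xr (lft q) (xr (Lam (lft q)) (rgt q))) = lft q := by
    rw [xr_comm, xr_cancel]
  unfold Thi Th
  rw [lft_join, rgt_join, h1, xr_comm (Lam (lft q)) (rgt q), xr_cancel, join_lft_rgt]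

theorem th_thi (q : ℕ → Bool) : Th (Thi q) = q := by
  have h1 : xr (Lam (xr (lft q) (rgt q))) (xr (lft q) (Lam (xr (lft q) (rgt q)))) = lft q := by
    rw [xr_comm, xr_cancel]
  unfold Thi Th
  rw [lft_join, rgt_join, h1]
  rw [xr_comm (xr (lft q) (rgt q)) (lft q), xr_cancel', join_lft_rgt]

def ThH : (ℕ → Bool) ≃ₜ (ℕ → Bool) where
  toFun := Th
  invFun := Thi
  left_inv := thi_th
  right_inv := th_thi
  continuous_toFun := continuous_th
  continuous_invFun := continuous_thi

def xrH (d : ℕ → Bool) : (ℕ → Bool) ≃ₜ (ℕ → Bool) where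
  toFun q := xr q d
  invFun q := xr q d
  left_inv q := xr_cancel q d
  right_inv q := xr_cancel q d
  continuous_toFun := continuous_xr continuous_id continuous_const
  continuous_invFun := continuous_xr continuous_id continuous_const

theorem ev_homeo {P : (ℕ → Bool) → Prop} (φ : (ℕ → Bool) ≃ₜ (ℕ → Bool))
    (h : ∀ᶠ q in residual (ℕ → Bool), P q) : ∀ᶠ q in residual (ℕ → Bool), P (φ q) :=
  (tendsto_residual_of_isOpenMap φ.continuous φ.isOpenMap).eventually h

theorem TLE.xr {A B B' : ℕ → Bool} (h : TLE B A) (h' : TLE B' A) : TLE (xr B B') A :=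
  h.map₂ h' Bool.xor

theorem primrec_sh : Primrec sh :=
  Primrec₂.natPair.comp (Primrec.succ.comp (Primrec.fst.comp Primrec.unpair))
    (Primrec.snd.comp Primrec.unpair)

theorem TLE.lam {A B : ℕ → Bool} (h : TLE B A) : TLE (Lam B) A := h.comp_idx primrec_sh

theorem primrec_dz : Primrec fun n : ℕ => decide (n.unpair.1 = 0) :=
  (PrimrecRel.decide Primrec.eq).comp (Primrec.fst.comp Primrec.unpair) (Primrec.const 0)

theorem TLE.mc {A B : ℕ → Bool} (h : TLE B A) : TLE (Mc B) A :=
  (TLE.primrec primrec_dz).map₂ h (fun x y => x && y)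

theorem tle_tail {A C : ℕ → Bool} (h : TLE C A) (r : ℕ) :
    TLE (fun m => decide (r ≤ m.unpair.2) && C (m.unpair.2 - r)) A := by
  have h1 : Primrec fun m : ℕ => decide (r ≤ m.unpair.2) :=
    (PrimrecRel.decide Primrec.nat_le).comp (Primrec.const r) (Primrec.snd.comp Primrec.unpair)
  have h2 : Primrec fun m : ℕ => m.unpair.2 - r :=
    Primrec.nat_sub.comp (Primrec.snd.comp Primrec.unpair) (Primrec.const r)
  exact (TLE.primrec h1).map₂ (h.comp_idx h2) (fun x y => x && y)

theorem TLE.del {A C : ℕ → Bool} (h : TLE C A) (r : ℕ) : TLE (Del C r 0) A := by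
  have h1 : Primrec fun m : ℕ => m.unpair.1 + 0 :=
    Primrec.nat_add.comp (Primrec.fst.comp Primrec.unpair) (Primrec.const 0)
  exact (h.comp_idx h1).map₂ (tle_tail h r) (fun x y => x && y)

theorem tle_of_vh {A C : ℕ → Bool} {r : ℕ} (h : TLE (vh C r) A) : TLE C A := by
  have h1 : Primrec fun m : ℕ => Nat.pair 0 (m + r) :=
    Primrec₂.natPair.comp (Primrec.const 0) (Primrec.nat_add.comp Primrec.id (Primrec.const r))
  have h2 := h.comp_idx h1
  have : (fun n => vh C r (Nat.pair 0 (n + r))) = C := by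
    funext n
    simp [vh]
  rwa [this] at h2

end Vale.Agent.P327
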