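import Vale.Agent.P327.Norm

namespace Vale.Agent.P327

open Encodable

def TC (A : ℕ → Bool) (f : ℕ → ℕ) : Prop :=
  Nat.RecursiveIn {chi A} (fun n => Part.some (f n))

theorem tle_iff {A B : ℕ → Bool} : TLE B A ↔ TC A (fun n => (B n).toNat) :=
  RecursiveIn.iff_nat

theorem TC.of_eq {A : ℕ → Bool} {f g : ℕ → ℕ} (hf : TC A f) (h : ∀ n, f n = g n) : TC A g := by
  have : f = g := funext h
  rwa [← this]

theorem TC.prim {A : ℕ → Bool} {f : ℕ → ℕ} (hf : Primrec f) : TC A f :=
  Nat.Primrec.recursiveIn (Primrec.nat_iff.1 hf)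

theorem TC.computable {A : ℕ → Bool} {f : ℕ → ℕ} (hf : Computable f) : TC A f :=
  Nat.Partrec.recursiveIn (Partrec.nat_iff.1 hf)

theorem TC.comp {A : ℕ → Bool} {f g : ℕ → ℕ} (hf : TC A f) (hg : TC A g) :
    TC A (fun n => f (g n)) := by
  refine Nat.RecursiveIn.of_eq (Nat.RecursiveIn.comp hf hg) fun n => ?_
  exact Part.bind_some _ _

theorem TC.pair {A : ℕ → Bool} {f g : ℕ → ℕ} (hf : TC A f) (hg : TC A g) :
    TC A (fun n => Nat.pair (f n) (g n)) := by
  refine Nat.RecursiveIn.of_eq (Nat.RecursiveIn.pair hf hg) fun n => ?_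
  simp [Seq.seq]

theorem TC.oracle (A : ℕ → Bool) : TC A (fun n => (A n).toNat) :=
  Nat.RecursiveIn.oracle _ (Set.mem_singleton _)

theorem TC.prec {A : ℕ → Bool} {f g : ℕ → ℕ} (hf : TC A f) (hg : TC A g) :
    TC A (fun p => Nat.rec (f p.unpair.1)
      (fun y IH => g (Nat.pair p.unpair.1 (Nat.pair y IH))) p.unpair.2) := by
  refine Nat.RecursiveIn.of_eq (Nat.RecursiveIn.prec hf hg) fun n => ?_
  change (Nat.rec (Part.some (f n.unpair.1)) (fun y IH => IH >>= fun i =>
          Part.some (g (Nat.pair n.unpair.1 (Nat.pair y i)))) n.unpair.2 : Part ℕ) =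
          Part.some (Nat.rec (f n.unpair.1)
      (fun y IH => g (Nat.pair n.unpair.1 (Nat.pair y IH))) n.unpair.2)
  generalize n.unpair.1 = a
  generalize n.unpair.2 = m
  induction m with
  | zero => rfl
  | succ m ih =>
    change ((Nat.rec (Part.some (f a)) (fun y IH => IH >>= fun i =>
          Part.some (g (Nat.pair a (Nat.pair y i)))) m : Part ℕ) >>= fun i =>
          Part.some (g (Nat.pair a (Nat.pair m i)))) = _
    rw [ih]
    exact Part.bind_some _ _

theorem TC.find {A : ℕ → Bool} {T : ℕ → ℕ} (hT : TC A T)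
    (h : ∀ i, ∃ s, T (Nat.pair i s) = 0) :
    ∃ s : ℕ → ℕ, TC A s ∧ ∀ i, T (Nat.pair i (s i)) = 0 := by
  refine ⟨fun i => Nat.find (h i), ?_, fun i => Nat.find_spec (h i)⟩
  refine Nat.RecursiveIn.of_eq_tot (Nat.RecursiveIn.rfind hT) fun i => ?_
  refine Nat.mem_rfind.2 ⟨?_, ?_⟩
  · simp only [Part.map_eq_map, Part.map_some, Part.mem_some_iff]
    have := Nat.find_spec (h i)
    simpa using this
  · intro m hm
    simp only [Part.map_eq_map, Part.map_some, Part.mem_some_iff]
    have := Nat.find_min (h i) hm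
    simpa using this

theorem pre_succ (A : ℕ → Bool) (k : ℕ) : pre A (k + 1) = pre A k ++ [some (A k)] := by
  simp [pre, List.range_succ]

theorem TC.pre (A : ℕ → Bool) : TC A (fun k => encode (pre A k)) := by
  have h1 : TC A (fun z => encode ((((decode z.unpair.1 : Option PL)).getD []) ++
      [some (decide (z.unpair.2 ≠ 0))])) := by
    refine TC.prim ?_
    refine Primrec.encode.comp ?_
    refine Primrec.list_append.comp ?_ ?_
    · exact Primrec.option_getD.comp (Primrec.decode.comp (Primrec.fst.comp Primrec.unpair))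
        (Primrec.const _)
    · refine Primrec.list_cons.comp ?_ (Primrec.const _)
      refine Primrec.option_some.comp ?_
      have h0 : Primrec fun z : ℕ => decide (z.unpair.2 = 0) :=
        (PrimrecRel.decide Primrec.eq).comp (Primrec.snd.comp Primrec.unpair) (Primrec.const 0)
      refine (Primrec.not.comp h0).of_eq ?_
      intro z
      simp
  have h2 : TC A (fun x => Nat.pair (x.unpair.2.unpair.2) ((A x.unpair.2.unpair.1).toNat)) := by
    refine TC.pair (TC.prim ?_) ?_
    · exact Primrec.snd.comp (Primrec.unpair.comp (Primrec.snd.comp Primrec.unpair))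
    · refine TC.comp (TC.oracle A) (TC.prim ?_)
      exact Primrec.fst.comp (Primrec.unpair.comp (Primrec.snd.comp Primrec.unpair))
  have h3 := TC.prec (A := A) (TC.prim (Primrec.const (encode ([] : PL)))) (TC.comp h1 h2)
  have h4 := TC.comp h3 (TC.pair (TC.prim (Primrec.const 0)) (TC.prim Primrec.id))
  refine TC.of_eq h4 fun k => ?_
  simp only [Nat.unpair_pair, id]
  induction k with
  | zero => rfl
  | succ k ih =>
    simp only
    rw [ih]
    simp only [encodek, Option.getD_some, pre_succ]
    cases A k <;> rfl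

theorem tle_of_search {A B : ℕ → Bool} {g : PL → ℕ → ℕ → Option Bool}
    (hg : Computable fun x : PL × ℕ × ℕ => g x.1 x.2.1 x.2.2)
    (sound : ∀ k m i b, g (pre A k) m i = some b → b = B i)
    (total : ∀ i, ∃ k m, g (pre A k) m i ≠ none) : TLE B A := by
  rw [tle_iff]
  have h1 : TC A (fun z => encode (g (((decode z.unpair.1 : Option PL)).getD [])
      z.unpair.2.unpair.1 z.unpair.2.unpair.2)) := by
    refine TC.computable ?_
    refine Computable.encode.comp ?_
    refine hg.comp (f := fun x : PL × ℕ × ℕ => g x.1 x.2.1 x.2.2)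
      (g := fun z : ℕ => (((decode z.unpair.1 : Option PL)).getD [],
        z.unpair.2.unpair.1, z.unpair.2.unpair.2)) ?_
    refine Primrec.to_comp ?_
    refine Primrec.pair ?_ (Primrec.pair ?_ ?_)
    · exact Primrec.option_getD.comp (Primrec.decode.comp (Primrec.fst.comp Primrec.unpair))
        (Primrec.const _)
    · exact Primrec.fst.comp (Primrec.unpair.comp (Primrec.snd.comp Primrec.unpair))
    · exact Primrec.snd.comp (Primrec.unpair.comp (Primrec.snd.comp Primrec.unpair))
  have h2 : TC A (fun z => Nat.pair (encode (pre A z.unpair.2.unpair.1))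
      (Nat.pair z.unpair.2.unpair.2 z.unpair.1)) := by
    refine TC.pair (TC.comp (TC.pre A) (TC.prim ?_)) (TC.prim ?_)
    · exact Primrec.fst.comp (Primrec.unpair.comp (Primrec.snd.comp Primrec.unpair))
    · exact Primrec₂.natPair.comp
        (Primrec.snd.comp (Primrec.unpair.comp (Primrec.snd.comp Primrec.unpair)))
        (Primrec.fst.comp Primrec.unpair)
  have h3 : TC A (fun z => encode (g (pre A z.unpair.2.unpair.1)
      z.unpair.2.unpair.2 z.unpair.1)) := by
    refine TC.of_eq (TC.comp h1 h2) fun z => ?_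
    simp
  have h4 : TC A (fun z => 1 - encode (g (pre A z.unpair.2.unpair.1)
      z.unpair.2.unpair.2 z.unpair.1)) :=
    TC.comp (TC.prim (Primrec.nat_sub.comp (Primrec.const 1) Primrec.id)) h3
  have h5 : ∀ i, ∃ s, (fun z : ℕ => 1 - encode (g (pre A z.unpair.2.unpair.1)
      z.unpair.2.unpair.2 z.unpair.1)) (Nat.pair i s) = 0 := by
    intro i
    obtain ⟨k, m, h⟩ := total i
    refine ⟨Nat.pair k m, ?_⟩
    obtain ⟨b, hb⟩ := Option.ne_none_iff_exists'.1 h
    simp only [Nat.unpair_pair, hb]
    simp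
  obtain ⟨s, h6, h9⟩ := TC.find h4 h5
  have h7 := TC.comp h3 (TC.pair (TC.prim Primrec.id) h6)
  have h8 := TC.comp (TC.prim (A := A) (f := fun z => z - 1)
    (Primrec.nat_sub.comp Primrec.id (Primrec.const 1))) h7
  refine TC.of_eq h8 fun i => ?_
  have h9 := h9 i
  simp only [Nat.unpair_pair, id] at h9 ⊢
  generalize hb : g (pre A (s i).unpair.1) (s i).unpair.2 i = r at h9 ⊢
  cases r with
  | none => simp at h9
  | some b =>
    rw [← sound _ _ _ _ hb]
    cases b <;> rfl

end Vale.Agent.P327
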